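import Mathlib

/-!
Approximate eigenvectors for bounded operators on a nonzero complex Banach space.
-/

open Filter Topology

namespace Vale.Agent.P267.H662

variable {V : Type*} [NormedAddCommGroup V] [NormedSpace ℂ V] [CompleteSpace V] [Nontrivial V]

/-- The spectrum of a bounded operator on a nonzero complex Banach space has a boundary point. -/
theorem exists_mem_frontier_spectrum (T : V →L[ℂ] V) :
    ∃ mu : ℂ, mu ∈ frontier (spectrum ℂ T) := by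
  have hne : (spectrum ℂ T).Nonempty := spectrum.nonempty T
  have hc : IsCompact (spectrum ℂ T) := spectrum.isCompact T
  have hnu : spectrum ℂ T ≠ Set.univ := by
    intro h
    have := hc
    rw [h] at this
    exact noncompact_univ ℂ this
  exact (nonempty_frontier_iff (s := spectrum ℂ T)).2 ⟨hne, hnu⟩

/-- Every bounded operator on a nonzero complex Banach space has approximate eigenvectors. -/
theorem exists_approx_eigenvector (T : V →L[ℂ] V) :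
    ∃ mu : ℂ, mu ∈ spectrum ℂ T ∧ ∀ ε > (0 : ℝ), ∃ v : V, ‖v‖ = 1 ∧ ‖T v - mu • v‖ < ε := by
  obtain ⟨mu, hmu⟩ := exists_mem_frontier_spectrum T
  have hcl : IsClosed (spectrum ℂ T) := spectrum.isClosed T
  have hmem : mu ∈ spectrum ℂ T := hcl.frontier_subset hmu
  refine ⟨mu, hmem, fun ε hε => ?_⟩
  by_contra hcon
  push Not at hcon
  have hlow : ∀ v : V, ε * ‖v‖ ≤ ‖T v - mu • v‖ := by
    intro v
    by_cases hv : v = 0
    · simp [hv]
    · have hn : (0 : ℝ) < ‖v‖ := norm_pos_iff.2 hv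
      have h1 := hcon ((‖v‖⁻¹ : ℂ) • v) (by
        rw [norm_smul]; simp [hn.ne'])
      have h2 : T ((‖v‖⁻¹ : ℂ) • v) - mu • ((‖v‖⁻¹ : ℂ) • v) = (‖v‖⁻¹ : ℂ) • (T v - mu • v) := by
        rw [map_smul, smul_sub, smul_comm mu]
      rw [h2, norm_smul] at h1
      have h3 : ‖((‖v‖ : ℂ))⁻¹‖ = ‖v‖⁻¹ := by simp
      rw [h3] at h1
      have := mul_le_mul_of_nonneg_left h1 hn.le
      calc ε * ‖v‖ = ‖v‖ * ε := mul_comm _ _
        _ ≤ ‖v‖ * (‖v‖⁻¹ * ‖T v - mu • v‖) := this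
        _ = ‖T v - mu • v‖ := by rw [← mul_assoc, mul_inv_cancel₀ hn.ne', one_mul]
  -- points of the complement of the spectrum near `mu`
  have hcc : mu ∈ closure (spectrum ℂ T)ᶜ := by
    rw [frontier_eq_closure_inter_closure] at hmu
    exact hmu.2
  obtain ⟨nu, hnu, hdist⟩ := Metric.mem_closure_iff.1 hcc (ε / 4) (by positivity)
  have hunit : IsUnit (algebraMap ℂ (V →L[ℂ] V) nu - T) := by
    by_contra h
    exact hnu (spectrum.mem_iff.2 h)
  obtain ⟨U, hU⟩ := hunit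
  have hlow' : ∀ v : V, (ε / 2) * ‖v‖ ≤ ‖(U : V →L[ℂ] V) v‖ := by
    intro v
    have h1 : (U : V →L[ℂ] V) v = (nu - mu) • v - (T v - mu • v) := by
      rw [hU]
      simp [Algebra.algebraMap_eq_smul_one, sub_smul]
    have h2 : ‖T v - mu • v‖ ≤ ‖(U : V →L[ℂ] V) v‖ + ‖(nu - mu) • v‖ := by
      have : T v - mu • v = (nu - mu) • v - (U : V →L[ℂ] V) v := by rw [h1]; abel
      rw [this]
      refine (norm_sub_le _ _).trans ?_
      rw [add_comm]
    have h3 : ‖(nu - mu) • v‖ ≤ (ε / 4) * ‖v‖ := by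
      rw [norm_smul]
      gcongr
      rw [← dist_eq_norm, dist_comm]
      exact hdist.le
    have h4 := hlow v
    nlinarith [norm_nonneg v]
  have hinv : ‖(↑U⁻¹ : V →L[ℂ] V)‖ ≤ 2 / ε := by
    refine ContinuousLinearMap.opNorm_le_bound _ (by positivity) (fun w => ?_)
    have h1 := hlow' ((↑U⁻¹ : V →L[ℂ] V) w)
    have h2 : (U : V →L[ℂ] V) ((↑U⁻¹ : V →L[ℂ] V) w) = w := by
      have : (U : V →L[ℂ] V) * (↑U⁻¹ : V →L[ℂ] V) = 1 := U.mul_inv
      calc (U : V →L[ℂ] V) ((↑U⁻¹ : V →L[ℂ] V) w)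
          = ((U : V →L[ℂ] V) * (↑U⁻¹ : V →L[ℂ] V)) w := rfl
        _ = w := by rw [this]; rfl
    rw [h2] at h1
    rw [div_mul_eq_mul_div, le_div_iff₀ hε]
    nlinarith
  have hne : (↑U⁻¹ : V →L[ℂ] V) ≠ 0 := Units.ne_zero _
  have hpos : 0 < ‖(↑U⁻¹ : V →L[ℂ] V)‖ := norm_pos_iff.2 hne
  have hclose : ‖(algebraMap ℂ (V →L[ℂ] V) mu - T) - (U : V →L[ℂ] V)‖
      < ‖(↑U⁻¹ : V →L[ℂ] V)‖⁻¹ := by
    have h1 : (algebraMap ℂ (V →L[ℂ] V) mu - T) - (U : V →L[ℂ] V)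
        = algebraMap ℂ (V →L[ℂ] V) (mu - nu) := by
      rw [hU, map_sub]; abel
    rw [h1, norm_algebraMap']
    have h2 : ‖mu - nu‖ < ε / 4 := by rw [← dist_eq_norm]; exact hdist
    have h3 : ε / 2 ≤ ‖(↑U⁻¹ : V →L[ℂ] V)‖⁻¹ := by
      rw [le_inv_comm₀ (by positivity) hpos]
      calc ‖(↑U⁻¹ : V →L[ℂ] V)‖ ≤ 2 / ε := hinv
        _ = (ε / 2)⁻¹ := by rw [inv_div]
    linarith
  have hu : IsUnit (algebraMap ℂ (V →L[ℂ] V) mu - T) := (U.ofNearby _ hclose).isUnit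
  exact (spectrum.mem_iff.1 hmem) hu

/-- The approximate eigenvalue of an invertible operator is nonzero. -/
theorem exists_approx_eigenvector_equiv (T : V ≃L[ℂ] V) :
    ∃ mu : ℂ, mu ≠ 0 ∧ ∀ ε > (0 : ℝ), ∃ v : V, ‖v‖ = 1 ∧ ‖T v - mu • v‖ < ε := by
  obtain ⟨mu, hmem, h⟩ := exists_approx_eigenvector (T : V →L[ℂ] V)
  refine ⟨mu, ?_, h⟩
  rintro rfl
  rw [spectrum.zero_mem_iff] at hmem
  exact hmem ⟨ContinuousLinearEquiv.toUnit T, rfl⟩

end Vale.Agent.P267.H662
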