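import Vale.Agent.P267.H399.Defs

/-!
# Linear algebra of rank one projectors (helper662, package LB-K)
-/

open scoped ComplexConjugate Matrix ComplexOrder

noncomputable section

namespace Vale.Agent.P267.H662

open Vale.Agent.P267.FL

set_option linter.unusedSectionVars false

variable {ι : Type} [Fintype ι] [DecidableEq ι]

/-- a Hermitian idempotent matrix with trace zero vanishes -/
theorem eq_zero_of_herm_idem {Q : Matrix ι ι ℂ} (hH : Qᴴ = Q) (hI : Q * Q = Q)
    (ht : Q.trace = 0) : Q = 0 := by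
  have h1 : (Qᴴ * Q).trace = 0 := by rw [hH, hI, ht]
  exact (Matrix.trace_conjTranspose_mul_self_eq_zero_iff (A := Q)).1 h1

/-- the orthogonal projector on the line spanned by `v` -/
def proj (v : EuclideanSpace ℂ ι) : Matrix ι ι ℂ :=
  Matrix.of fun i j => v i * conj (v j) / (‖v‖ ^ 2 : ℂ)

theorem norm_sq_eq (v : EuclideanSpace ℂ ι) : ((‖v‖ ^ 2 : ℝ) : ℂ) = ∑ i, conj (v i) * v i := by
  rw [EuclideanSpace.norm_sq_eq]
  push_cast
  refine Finset.sum_congr rfl fun i _ => ?_
  rw [← Complex.conj_mul']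

theorem proj_herm (v : EuclideanSpace ℂ ι) : (proj v)ᴴ = proj v := by
  ext i j
  simp only [proj, Matrix.conjTranspose_apply, Matrix.of_apply]
  rw [star_div₀, star_mul']
  simp [mul_comm]

theorem proj_trace {v : EuclideanSpace ℂ ι} (hv : v ≠ 0) : (proj v).trace = 1 := by
  have h0 : ((‖v‖ ^ 2 : ℝ) : ℂ) ≠ 0 := by
    exact_mod_cast pow_ne_zero 2 (norm_ne_zero_iff.2 hv)
  simp only [Matrix.trace, Matrix.diag_apply, proj, Matrix.of_apply]
  rw [← Finset.sum_div]
  rw [div_eq_one_iff_eq (by exact_mod_cast h0)]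
  have := norm_sq_eq v
  push_cast at this
  rw [this]
  exact Finset.sum_congr rfl fun i _ => mul_comm _ _

theorem proj_idem {v : EuclideanSpace ℂ ι} (hv : v ≠ 0) : proj v * proj v = proj v := by
  have h0 : ((‖v‖ ^ 2 : ℝ) : ℂ) ≠ 0 := by
    exact_mod_cast pow_ne_zero 2 (norm_ne_zero_iff.2 hv)
  ext i j
  simp only [Matrix.mul_apply, proj, Matrix.of_apply]
  have h1 : ∀ k, v i * conj (v k) / (‖v‖ ^ 2 : ℂ) * (v k * conj (v j) / (‖v‖ ^ 2 : ℂ)) =
      (conj (v k) * v k) * (v i * conj (v j) / ((‖v‖ ^ 2 : ℂ) * (‖v‖ ^ 2 : ℂ))) := by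
    intro k
    rw [div_mul_div_comm]
    ring
  simp only [h1]
  rw [← Finset.sum_mul]
  have h2 := norm_sq_eq v
  push_cast at h2 h0
  rw [← h2]
  field_simp

theorem act_proj (v w : EuclideanSpace ℂ ι) :
    LB.act (proj v) w = (inner ℂ v w / (‖v‖ ^ 2 : ℂ)) • v := by
  ext i
  simp only [LB.act, proj, Matrix.mulVec, dotProduct, Matrix.of_apply, PiLp.smul_apply,
    smul_eq_mul, PiLp.inner_apply, RCLike.inner_apply]
  rw [Finset.sum_div, Finset.sum_mul]
  refine Finset.sum_congr rfl fun j _ => ?_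
  ring

theorem act_add (M : Matrix ι ι ℂ) (v w : EuclideanSpace ℂ ι) :
    LB.act M (v + w) = LB.act M v + LB.act M w := by
  ext i; simp [LB.act, Matrix.mulVec_add]

theorem act_sub (M : Matrix ι ι ℂ) (v w : EuclideanSpace ℂ ι) :
    LB.act M (v - w) = LB.act M v - LB.act M w := by
  ext i; simp [LB.act, Matrix.mulVec_sub]

theorem act_smul (M : Matrix ι ι ℂ) (c : ℂ) (v : EuclideanSpace ℂ ι) :
    LB.act M (c • v) = c • LB.act M v := by
  ext i; simp [LB.act, Matrix.mulVec_smul]

theorem act_zero (M : Matrix ι ι ℂ) : LB.act M (0 : EuclideanSpace ℂ ι) = 0 := by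
  ext i; simp [LB.act]

theorem act_act (M N : Matrix ι ι ℂ) (v : EuclideanSpace ℂ ι) :
    LB.act M (LB.act N v) = LB.act (M * N) v := by
  ext i; simp [LB.act, Matrix.mulVec_mulVec]

/-- a rank one projector fixing `v ≠ 0` is the projector on the line of `v` -/
theorem eq_proj {P : Matrix ι ι ℂ} (hH : Pᴴ = P) (hI : P * P = P) (ht : P.trace = 1)
    {v : EuclideanSpace ℂ ι} (hv : LB.act P v = v) (h0 : v ≠ 0) : P = proj v := by
  have hPv : P.mulVec v = v := by
    have := congrArg (fun w : EuclideanSpace ℂ ι => (w : ι → ℂ)) hv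
    simpa [LB.act] using this
  have h1 : P * proj v = proj v := by
    ext i j
    simp only [Matrix.mul_apply, proj, Matrix.of_apply]
    have h2 := congrFun hPv i
    simp only [Matrix.mulVec, dotProduct] at h2
    calc ∑ k, P i k * (v k * conj (v j) / (‖v‖ ^ 2 : ℂ))
        = (∑ k, P i k * v k) * conj (v j) / (‖v‖ ^ 2 : ℂ) := by
          rw [Finset.sum_mul, Finset.sum_div]
          exact Finset.sum_congr rfl fun k _ => by ring
      _ = v i * conj (v j) / (‖v‖ ^ 2 : ℂ) := by rw [h2]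
  have h2 : proj v * P = proj v := by
    have := congrArg Matrix.conjTranspose h1
    rw [Matrix.conjTranspose_mul, hH, proj_herm] at this
    exact this
  have hQH : (P - proj v)ᴴ = P - proj v := by
    rw [Matrix.conjTranspose_sub, hH, proj_herm]
  have hQI : (P - proj v) * (P - proj v) = P - proj v := by
    rw [Matrix.sub_mul, Matrix.mul_sub, Matrix.mul_sub, hI, h1, h2, proj_idem h0]
    simp
  have hQt : (P - proj v).trace = 0 := by
    rw [Matrix.trace_sub, ht, proj_trace h0, sub_self]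
  exact sub_eq_zero.1 (eq_zero_of_herm_idem hQH hQI hQt)

end Vale.Agent.P267.H662
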