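import Vale.Agent.P267.H399.Calc
import Vale.Agent.P267.H662.KBAlg

/-!
# Line bundles spanned by a nowhere zero section (helper662, package LB-K)
-/

open scoped Manifold ContDiff Topology ComplexConjugate Matrix ComplexOrder
open Set Filter

set_option linter.unusedSectionVars false

noncomputable section

namespace Vale.Agent.P267.H662

open Vale.Agent.P267.FL

variable {ι : Type} [Fintype ι] [DecidableEq ι]

theorem proj_smul {c : ℂ} (hc : c ≠ 0) (v : EuclideanSpace ℂ ι) : proj (c • v) = proj v := by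
  ext i j
  simp only [proj, Matrix.of_apply, PiLp.smul_apply, smul_eq_mul, map_mul, norm_smul]
  have h1 : c * conj c = ((‖c‖ ^ 2 : ℝ) : ℂ) := by
    rw [Complex.mul_conj, Complex.normSq_eq_norm_sq]
  have h2 : ((‖c‖ : ℂ)) ^ 2 ≠ 0 := by
    exact pow_ne_zero 2 (by exact_mod_cast norm_ne_zero_iff.2 hc)
  push_cast at h1 ⊢
  rw [mul_pow, show c * v i * (conj c * conj (v j)) = (c * conj c) * (v i * conj (v j)) by ring, h1,
    mul_div_mul_left _ _ h2]

theorem contDiffAt_coord {n : WithTop ℕ∞} {f : C2 → EuclideanSpace ℂ ι} {z : C2}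
    (hf : ContDiffAt ℝ n f z) (i : ι) : ContDiffAt ℝ n (fun y => f y i) z :=
  (((EuclideanSpace.proj i : EuclideanSpace ℂ ι →L[ℂ] ℂ).restrictScalars ℝ).contDiff.contDiffAt).comp
    z hf

theorem contDiffAt_of_coord {n : WithTop ℕ∞} {f : C2 → EuclideanSpace ℂ ι} {z : C2}
    (hf : ∀ i, ContDiffAt ℝ n (fun y => f y i) z) : ContDiffAt ℝ n f z := by
  have h : ContDiffAt ℝ n (fun y => (fun i => f y i : ι → ℂ)) z := contDiffAt_pi.2 hf
  have h2 : f = fun y => (EuclideanSpace.equiv ι ℂ).symm (fun i => f y i) := by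
    funext y
    rfl
  rw [h2]
  exact ((((EuclideanSpace.equiv ι ℂ).symm : (ι → ℂ) →L[ℂ] EuclideanSpace ℂ ι).restrictScalars
    ℝ).contDiff.contDiffAt).comp z h

theorem contDiffAt_norm_sq {n : WithTop ℕ∞} {f : C2 → EuclideanSpace ℂ ι} {z : C2}
    (hf : ContDiffAt ℝ n f z) : ContDiffAt ℝ n (fun y => (‖f y‖ ^ 2 : ℂ)) z := by
  have h : (fun y => (‖f y‖ ^ 2 : ℂ)) = fun y => ∑ i, conj (f y i) * f y i := by
    funext y
    have := norm_sq_eq (f y)
    push_cast at this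
    exact this
  rw [h]
  refine ContDiffAt.sum fun i _ => ?_
  exact (Complex.conjCLE.contDiff.contDiffAt.comp z (contDiffAt_coord hf i)).mul
    (contDiffAt_coord hf i)

theorem norm_sq_ne_zero {v : EuclideanSpace ℂ ι} (hv : v ≠ 0) : (‖v‖ ^ 2 : ℂ) ≠ 0 :=
  pow_ne_zero 2 (by exact_mod_cast norm_ne_zero_iff.2 hv)

theorem contDiffAt_div {n : WithTop ℕ∞} {f g : C2 → ℂ} {z : C2}
    (hf : ContDiffAt ℝ n f z) (hg : ContDiffAt ℝ n g z) (h0 : g z ≠ 0) :
    ContDiffAt ℝ n (fun y => f y / g y) z := by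
  simp only [div_eq_mul_inv]
  exact hf.mul (hg.inv h0)

theorem contDiffAt_proj {n : WithTop ℕ∞} {f : C2 → EuclideanSpace ℂ ι} {z : C2}
    (hf : ContDiffAt ℝ n f z) (h0 : f z ≠ 0) (i j : ι) :
    ContDiffAt ℝ n (fun y => proj (f y) i j) z := by
  simp only [proj, Matrix.of_apply]
  exact contDiffAt_div ((contDiffAt_coord hf i).mul
    (Complex.conjCLE.contDiff.contDiffAt.comp z (contDiffAt_coord hf j)))
    (contDiffAt_norm_sq hf) (norm_sq_ne_zero h0)

variable {X : Type*} [TopologicalSpace X] [ChartedSpace C2 X] [IsManifold 𝓘(ℂ, C2) ω X]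

/-- the line bundle spanned by a nowhere zero smooth section of `K^κ ⊗ ℂ^ι` -/
def ofSec (κ : ℤ) (σ : X → EuclideanSpace ℂ ι) (hσ : Reg0 ∞ κ σ) (h0 : ∀ x, σ x ≠ 0) : LB X ι where
  P x := proj (σ x)
  smooth i j := by
    intro e he z hz
    have hd : (jac e (e.symm z)).det ≠ 0 := jac_det_ne_zero he (e.map_target hz)
    have h1 : loc0 0 e (fun x => proj (σ x) i j) =ᶠ[𝓝 z] fun y => proj (loc0 κ e σ y) i j := by
      filter_upwards [e.open_target.mem_nhds hz] with y hy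
      have hd : (jac e (e.symm y)).det ≠ 0 := jac_det_ne_zero he (e.map_target hy)
      rw [LB.loc0_zero, loc0, proj_smul (zpow_ne_zero κ hd)]
      rfl
    refine (ContDiffAt.congr_of_eventuallyEq ?_ h1).contDiffWithinAt
    refine contDiffAt_proj (hσ.contDiffAt he hz) ?_ i j
    exact smul_ne_zero (zpow_ne_zero κ hd) (h0 _)
  herm x := proj_herm _
  idem x := proj_idem (h0 x)
  tr x := proj_trace (h0 x)

theorem act_proj_self {v : EuclideanSpace ℂ ι} (hv : v ≠ 0) : LB.act (proj v) v = v := by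
  rw [act_proj, inner_self_eq_norm_sq_to_K]
  have := norm_sq_ne_zero hv
  simp only [Complex.coe_algebraMap] at *
  rw [div_self this, one_smul]

theorem ofSec_sec (κ : ℤ) (σ : X → EuclideanSpace ℂ ι) (hσ : Reg0 ∞ κ σ) (h0 : ∀ x, σ x ≠ 0) :
    (ofSec κ σ hσ h0).Sec σ := fun x => act_proj_self (h0 x)

/-- a bundle with a nowhere zero section of `K^κ ⊗ L` has the projector of this section -/
theorem P_eq_proj (L : LB X ι) {σ : X → EuclideanSpace ℂ ι} {x : X}
    (hs : LB.act (L.P x) (σ x) = σ x) (h0 : σ x ≠ 0) : L.P x = proj (σ x) :=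
  eq_proj (L.herm x) (L.idem x) (L.tr x) hs h0

/-- the action of `P` in terms of a nonzero section -/
theorem act_P (L : LB X ι) {σ : X → EuclideanSpace ℂ ι} {x : X}
    (hs : LB.act (L.P x) (σ x) = σ x) (h0 : σ x ≠ 0) (w : EuclideanSpace ℂ ι) :
    LB.act (L.P x) w = (inner ℂ (σ x) w / (‖σ x‖ ^ 2 : ℂ)) • σ x := by
  rw [P_eq_proj L hs h0, act_proj]

/-! ### the holomorphic structure for which a nowhere zero section is holomorphic -/

/-- the scalar (0,1)-form `a` with `P ∂̄σ + a σ = 0` -/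
def conn (κ : ℤ) (σ : X → EuclideanSpace ℂ ι) (x : X) (i : Fin 2) : ℂ :=
  -(inner ℂ (σ x) (dbar0 κ σ x i) / (‖σ x‖ ^ 2 : ℂ))

theorem db0_conn (L : LB X ι) {κ : ℤ} {σ : X → EuclideanSpace ℂ ι} {x : X}
    (hs : LB.act (L.P x) (σ x) = σ x) (h0 : σ x ≠ 0) (i : Fin 2) :
    L.db0 (conn κ σ) κ σ x i = 0 := by
  rw [LB.db0, act_P L hs h0, conn, neg_smul, add_neg_cancel]

theorem conn_unique (L : LB X ι) {κ : ℤ} {σ : X → EuclideanSpace ℂ ι} {x : X}
    (hs : LB.act (L.P x) (σ x) = σ x) (h0 : σ x ≠ 0) {a : X → Fin 2 → ℂ} {i : Fin 2}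
    (h : L.db0 a κ σ x i = 0) : a x i = conn κ σ x i := by
  have h1 := db0_conn L (κ := κ) hs h0 i
  rw [← h1] at h
  simp only [LB.db0, add_right_inj] at h
  exact smul_left_injective ℂ h0 h

theorem inner_smul_div {c : ℂ} (hc : c ≠ 0) (v w : EuclideanSpace ℂ ι) :
    inner ℂ (c • v) (c • w) / (‖c • v‖ ^ 2 : ℂ) = inner ℂ v w / (‖v‖ ^ 2 : ℂ) := by
  rw [inner_smul_left, inner_smul_right, norm_smul]
  have h1 : conj c * c = ((‖c‖ ^ 2 : ℝ) : ℂ) := by
    rw [mul_comm, Complex.mul_conj, Complex.normSq_eq_norm_sq]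
  have h2 : ((‖c‖ : ℂ)) ^ 2 ≠ 0 := by
    exact pow_ne_zero 2 (by exact_mod_cast norm_ne_zero_iff.2 hc)
  push_cast at h1 ⊢
  rw [← mul_assoc, h1, mul_pow, mul_div_mul_left _ _ h2]

/-- `conn` in an arbitrary chart -/
theorem loc1_conn {κ : ℤ} {σ : X → EuclideanSpace ℂ ι} {e : Ch X}
    (he : e ∈ atlas C2 X) {z : C2} (hz : z ∈ e.target)
    (hdiff : DifferentiableAt ℝ (loc0 κ e σ) z) (i : Fin 2) :
    loc1 0 e (conn κ σ) z i =
      -(inner ℂ (loc0 κ e σ z) (dzb i (loc0 κ e σ) z) / (‖loc0 κ e σ z‖ ^ 2 : ℂ)) := by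
  have hd : (jac e (e.symm z)).det ≠ 0 := jac_det_ne_zero he (e.map_target hz)
  rw [← loc1_dbar0 he hz hdiff i]
  have h1 : loc1 κ e (dbar0 κ σ) z i = (jac e (e.symm z)).det ^ κ •
      ∑ p, conj (jac e (e.symm z) p i) • dbar0 κ σ (e.symm z) p := rfl
  have h2 : loc0 κ e σ z = (jac e (e.symm z)).det ^ κ • σ (e.symm z) := rfl
  rw [h1, h2, inner_smul_div (zpow_ne_zero κ hd), inner_sum]
  simp only [loc1, zpow_zero, conn, inner_smul_right, smul_eq_mul, mul_neg,
    Finset.sum_neg_distrib, Finset.sum_div, mul_div_assoc, one_mul]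

theorem contDiffAt_inner {n : WithTop ℕ∞} {f g : C2 → EuclideanSpace ℂ ι} {z : C2}
    (hf : ContDiffAt ℝ n f z) (hg : ContDiffAt ℝ n g z) :
    ContDiffAt ℝ n (fun y => inner ℂ (f y) (g y)) z := by
  simp only [PiLp.inner_apply, RCLike.inner_apply]
  refine ContDiffAt.sum fun i _ => ?_
  exact (contDiffAt_coord hg i).mul
    (Complex.conjCLE.contDiff.contDiffAt.comp z (contDiffAt_coord hf i))

theorem reg1_conn {κ : ℤ} {σ : X → EuclideanSpace ℂ ι} (hσ : Reg0 ∞ κ σ) (h0 : ∀ x, σ x ≠ 0) :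
    Reg1 ∞ 0 (conn κ σ) := by
  intro e he z hz
  have h1 : loc1 0 e (conn κ σ) =ᶠ[𝓝 z] fun y i =>
      -(inner ℂ (loc0 κ e σ y) (dzb i (loc0 κ e σ) y) / (‖loc0 κ e σ y‖ ^ 2 : ℂ)) := by
    filter_upwards [e.open_target.mem_nhds hz] with y hy
    funext i
    exact loc1_conn he hy ((hσ.contDiffAt he hy).differentiableAt (by simp)) i
  refine (ContDiffAt.congr_of_eventuallyEq ?_ h1).contDiffWithinAt
  have hd : (jac e (e.symm z)).det ≠ 0 := jac_det_ne_zero he (e.map_target hz)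
  refine contDiffAt_pi.2 fun i => ContDiffAt.neg ?_
  refine contDiffAt_div (contDiffAt_inner (hσ.contDiffAt he hz)
    (contDiffAt_dzb (hσ.contDiffAt he hz) (by simp) i))
    (contDiffAt_norm_sq (hσ.contDiffAt he hz)) (norm_sq_ne_zero ?_)
  exact smul_ne_zero (zpow_ne_zero κ hd) (h0 _)

end Vale.Agent.P267.H662
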