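import Vale.Agent.P267.H662.KB1

/-!
# Curvature of a line bundle in terms of a local nowhere zero section of `K^κ ⊗ L`
(helper662, package LB-K)
-/

open scoped Manifold ContDiff Topology ComplexConjugate Matrix ComplexOrder
open Set Filter

set_option linter.unusedSectionVars false
set_option linter.unusedSimpArgs false

noncomputable section

namespace Vale.Agent.P267.H662

open Vale.Agent.P267.FL

variable {ι : Type} [Fintype ι] [DecidableEq ι]

open Matrix in
/-- the trace of the commutator of derivatives of a rank one projector `f ⊗ g` -/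
theorem trace_rank_one {f g f0 g0 f1 g1 : ι → ℂ} (h : g ⬝ᵥ f = 1)
    (h0 : g0 ⬝ᵥ f + g ⬝ᵥ f0 = 0) (h1 : g1 ⬝ᵥ f + g ⬝ᵥ f1 = 0) :
    (vecMulVec f g * ((vecMulVec f0 g + vecMulVec f g0) * (vecMulVec f1 g + vecMulVec f g1) -
      (vecMulVec f1 g + vecMulVec f g1) * (vecMulVec f0 g + vecMulVec f g0))).trace =
      g0 ⬝ᵥ f1 - g1 ⬝ᵥ f0 := by
  simp only [Matrix.mul_add, Matrix.add_mul, Matrix.mul_sub, vecMulVec_mul_vecMulVec,
    vecMulVec_smul, Matrix.mul_smul, smul_smul, trace_add, trace_sub, trace_smul,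
    trace_vecMulVec, smul_eq_mul, h]
  rw [dotProduct_comm f g, dotProduct_comm f g0, dotProduct_comm f g1, h]
  have e0 : g ⬝ᵥ f0 = - (g0 ⬝ᵥ f) := by linear_combination h0
  have e1 : g ⬝ᵥ f1 = - (g1 ⬝ᵥ f) := by linear_combination h1
  simp only [e0, e1]
  ring

/-- a first order differential operator without zero order term, at `z` -/
structure IsDer (z : C2) (D : (C2 → ℂ) → C2 → ℂ) : Prop where
  congr : ∀ {f g : C2 → ℂ}, f =ᶠ[𝓝 z] g → D f z = D g z
  const : ∀ c : ℂ, D (fun _ => c) z = 0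
  mul : ∀ {f g : C2 → ℂ}, DifferentiableAt ℝ f z → DifferentiableAt ℝ g z →
    D (fun y => f y * g y) z = f z * D g z + D f z * g z
  sum : ∀ {κ : Type} (s : Finset κ) {f : κ → C2 → ℂ}, (∀ i ∈ s, DifferentiableAt ℝ (f i) z) →
    D (fun y => ∑ i ∈ s, f i y) z = ∑ i ∈ s, D (f i) z

theorem isDer_dz (z : C2) (k : Fin 2) : IsDer z (dz k) where
  congr h := dz_congr h k
  const c := dz_const c z k
  mul hf hg := dz_mul hf hg k
  sum s _ h := dz_sum s h k

theorem isDer_dzb (z : C2) (k : Fin 2) : IsDer z (dzb k) where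
  congr h := dzb_congr h k
  const c := dzb_const c z k
  mul hf hg := dzb_mul hf hg k
  sum s _ h := dzb_sum s h k

/-- the dual frame `f^* / |f|²` -/
def dfr (f : C2 → EuclideanSpace ℂ ι) (j : ι) (y : C2) : ℂ := conj (f y j) / (‖f y‖ ^ 2 : ℂ)

theorem sum_dfr_mul {f : C2 → EuclideanSpace ℂ ι} {y : C2} (h : f y ≠ 0) :
    ∑ j, dfr f j y * f y j = 1 := by
  have h1 := norm_sq_ne_zero h
  have h2 := norm_sq_eq (f y)
  push_cast at h2
  simp only [dfr]
  have : ∀ j, conj (f y j) / (‖f y‖ ^ 2 : ℂ) * f y j = (conj (f y j) * f y j) / (‖f y‖ ^ 2 : ℂ) :=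
    fun j => by ring
  simp only [this]
  rw [← Finset.sum_div, ← h2, div_self h1]

theorem contDiffAt_dfr {n : WithTop ℕ∞} {f : C2 → EuclideanSpace ℂ ι} {z : C2}
    (hf : ContDiffAt ℝ n f z) (h0 : f z ≠ 0) (j : ι) : ContDiffAt ℝ n (dfr f j) z :=
  contDiffAt_div (Complex.conjCLE.contDiff.contDiffAt.comp z (contDiffAt_coord hf j))
    (contDiffAt_norm_sq hf) (norm_sq_ne_zero h0)

theorem proj_apply_dfr (f : C2 → EuclideanSpace ℂ ι) (y : C2) (i j : ι) :
    proj (f y) i j = f y i * dfr f j y := by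
  simp only [proj, Matrix.of_apply, dfr]
  ring

theorem eventually_ne {f : C2 → EuclideanSpace ℂ ι} {z : C2}
    (hf : ContinuousAt f z) (h0 : f z ≠ 0) : ∀ᶠ y in 𝓝 z, f y ≠ 0 :=
  hf.eventually_ne h0

theorem IsDer.sum_eq_zero {z : C2} {D : (C2 → ℂ) → C2 → ℂ} (hD : IsDer z D)
    {f : C2 → EuclideanSpace ℂ ι} (hf : ContDiffAt ℝ 1 f z) (h0 : f z ≠ 0) :
    (∑ j, D (dfr f j) z * f z j) + ∑ j, dfr f j z * D (fun y => f y j) z = 0 := by
  have h1 : D (fun y => ∑ j, dfr f j y * f y j) z = 0 := by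
    rw [hD.congr (g := fun _ => (1 : ℂ)) ?_, hD.const]
    filter_upwards [eventually_ne hf.continuousAt h0] with y hy
    exact sum_dfr_mul hy
  have hd1 : ∀ j, DifferentiableAt ℝ (dfr f j) z := fun j =>
    (contDiffAt_dfr hf h0 j).differentiableAt (by norm_num)
  have hd2 : ∀ j, DifferentiableAt ℝ (fun y => f y j) z := fun j =>
    (contDiffAt_coord hf j).differentiableAt (by norm_num)
  rw [hD.sum _ fun j _ => (hd1 j).fun_mul (hd2 j)] at h1
  rw [← Finset.sum_add_distrib, ← h1]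
  refine Finset.sum_congr rfl fun j _ => ?_
  rw [hD.mul (hd1 j) (hd2 j)]
  ring

/-- curvature components of `proj f` in terms of `f` -/
theorem IsDer.trace_proj {z : C2} {D D' : (C2 → ℂ) → C2 → ℂ} (hD : IsDer z D) (hD' : IsDer z D')
    {f : C2 → EuclideanSpace ℂ ι} (hf : ContDiffAt ℝ 1 f z) (h0 : f z ≠ 0) :
    (proj (f z) * ((Matrix.of fun i j => D (fun y => proj (f y) i j) z) *
        (Matrix.of fun i j => D' (fun y => proj (f y) i j) z) -
      (Matrix.of fun i j => D' (fun y => proj (f y) i j) z) *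
        (Matrix.of fun i j => D (fun y => proj (f y) i j) z))).trace =
      (∑ j, D (dfr f j) z * D' (fun y => f y j) z) -
        ∑ j, D' (dfr f j) z * D (fun y => f y j) z := by
  have hd1 : ∀ j, DifferentiableAt ℝ (dfr f j) z := fun j =>
    (contDiffAt_dfr hf h0 j).differentiableAt (by norm_num)
  have hd2 : ∀ j, DifferentiableAt ℝ (fun y => f y j) z := fun j =>
    (contDiffAt_coord hf j).differentiableAt (by norm_num)
  have key : ∀ {E : (C2 → ℂ) → C2 → ℂ}, IsDer z E →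
      (Matrix.of fun i j => E (fun y => proj (f y) i j) z) =
        Matrix.vecMulVec (fun i => E (fun y => f y i) z) (fun j => dfr f j z) +
          Matrix.vecMulVec (fun i => f z i) (fun j => E (dfr f j) z) := by
    intro E hE
    ext i j
    simp only [Matrix.of_apply, Matrix.add_apply, Matrix.vecMulVec_apply, proj_apply_dfr]
    rw [hE.mul (hd2 i) (hd1 j)]
    ring
  have hP : proj (f z) = Matrix.vecMulVec (fun i => f z i) (fun j => dfr f j z) := by
    ext i j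
    rw [proj_apply_dfr, Matrix.vecMulVec_apply]
  rw [key hD, key hD', hP]
  refine trace_rank_one ?_ ?_ ?_
  · simpa only [dotProduct] using sum_dfr_mul h0
  · simpa only [dotProduct] using hD.sum_eq_zero hf h0
  · simpa only [dotProduct] using hD'.sum_eq_zero hf h0

/-- coordinates of the derivatives -/
theorem dzb_coord {f : C2 → EuclideanSpace ℂ ι} {z : C2} (hf : DifferentiableAt ℝ f z) (k : Fin 2)
    (j : ι) : (dzb k f z) j = dzb k (fun y => f y j) z :=
  (dzb_clm (EuclideanSpace.proj j : EuclideanSpace ℂ ι →L[ℂ] ℂ) hf k).symm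

theorem dz_coord {f : C2 → EuclideanSpace ℂ ι} {z : C2} (hf : DifferentiableAt ℝ f z) (k : Fin 2)
    (j : ι) : (dz k f z) j = dz k (fun y => f y j) z :=
  (dz_clm (EuclideanSpace.proj j : EuclideanSpace ℂ ι →L[ℂ] ℂ) hf k).symm

theorem inner_div_eq {f : C2 → EuclideanSpace ℂ ι} {y : C2} (hf : DifferentiableAt ℝ f y)
    (k : Fin 2) : inner ℂ (f y) (dzb k f y) / (‖f y‖ ^ 2 : ℂ) =
      ∑ j, dfr f j y * dzb k (fun w => f w j) y := by
  rw [PiLp.inner_apply, Finset.sum_div]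
  refine Finset.sum_congr rfl fun j _ => ?_
  rw [RCLike.inner_apply, dzb_coord hf, dfr]
  ring

/-! ### the curvature forms -/

section curv

variable {X : Type*} [TopologicalSpace X] [ChartedSpace C2 X] [IsManifold 𝓘(ℂ, C2) ω X]

/-- `σ` is, near `x`, a smooth nonvanishing section of `K^κ ⊗ L` -/
structure NVSec (L : LB X ι) (κ : ℤ) (σ : X → EuclideanSpace ℂ ι) (x : X) : Prop where
  reg : ContDiffAt ℝ ∞ (loc0 κ (chartAt C2 x) σ) (chartAt C2 x x)
  sec : ∀ᶠ y in 𝓝 x, LB.act (L.P y) (σ y) = σ y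
  ne : σ x ≠ 0

variable {L : LB X ι} {κ : ℤ} {σ : X → EuclideanSpace ℂ ι} {x : X}

theorem tendsto_symm {e : Ch X} {x : X} (hx : x ∈ e.source) : Tendsto e.symm (𝓝 (e x)) (𝓝 x) := by
  have := e.symm.continuousAt (e.map_source hx)
  rwa [ContinuousAt, OpenPartialHomeomorph.left_inv _ hx] at this

theorem NVSec.f_ne (h : NVSec L κ σ x) : loc0 κ (chartAt C2 x) σ (chartAt C2 x x) ≠ 0 := by
  rw [loc0_chartAt]
  exact h.ne

theorem NVSec.eventually_P (h : NVSec L κ σ x) : ∀ᶠ z in 𝓝 (chartAt C2 x x),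
    L.P ((chartAt C2 x).symm z) = proj (loc0 κ (chartAt C2 x) σ z) := by
  have h1 : ∀ᶠ z in 𝓝 (chartAt C2 x x), LB.act (L.P ((chartAt C2 x).symm z))
      (σ ((chartAt C2 x).symm z)) = σ ((chartAt C2 x).symm z) :=
    (tendsto_symm (mem_chart_source C2 x)).eventually h.sec
  filter_upwards [h1, h.reg.continuousAt.eventually_ne h.f_ne,
    (chartAt C2 x).open_target.mem_nhds (mem_chart_target C2 x)] with z hz hz0 hzt
  have hd : (jac (chartAt C2 x) ((chartAt C2 x).symm z)).det ≠ 0 :=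
    jac_det_ne_zero (chart_mem_atlas C2 x) ((chartAt C2 x).map_target hzt)
  have hσ0 : σ ((chartAt C2 x).symm z) ≠ 0 := by
    intro h0
    apply hz0
    rw [loc0, h0, smul_zero]
  rw [loc0, proj_smul (zpow_ne_zero κ hd)]
  exact eq_proj (L.herm _) (L.idem _) (L.tr _) hz hσ0

theorem NVSec.loc_P (h : NVSec L κ σ x) (i j : ι) :
    (fun z => L.P ((chartAt C2 x).symm z) i j) =ᶠ[𝓝 (chartAt C2 x x)]
      fun z => proj (loc0 κ (chartAt C2 x) σ z) i j := by
  filter_upwards [h.eventually_P] with z hz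
  rw [hz]

theorem NVSec.P_eq (h : NVSec L κ σ x) :
    L.P x = proj (loc0 κ (chartAt C2 x) σ (chartAt C2 x x)) := by
  have := h.eventually_P.self_of_nhds
  rwa [(chartAt C2 x).left_inv (mem_chart_source C2 x)] at this

theorem NVSec.dbarP (h : NVSec L κ σ x) (k : Fin 2) :
    (Matrix.of fun i j => dbar0 0 (fun y => L.P y i j) x k) =
      Matrix.of fun i j => dzb k (fun z => proj (loc0 κ (chartAt C2 x) σ z) i j)
        (chartAt C2 x x) := by
  ext i j
  simp only [Matrix.of_apply, dbar0]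
  refine dzb_congr ?_ k
  rw [LB.loc0_zero]
  exact h.loc_P i j

theorem NVSec.delP (h : NVSec L κ σ x) (k : Fin 2) :
    (Matrix.of fun i j => del0 (fun y => L.P y i j) x k) =
      Matrix.of fun i j => dz k (fun z => proj (loc0 κ (chartAt C2 x) σ z) i j)
        (chartAt C2 x x) := by
  ext i j
  simp only [Matrix.of_apply, del0]
  exact dz_congr (h.loc_P i j) k

theorem NVSec.F02_eq (h : NVSec L κ σ x) {f : C2 → EuclideanSpace ℂ ι}
    (hf : f = loc0 κ (chartAt C2 x) σ) {z : C2} (hz : z = chartAt C2 x x) : L.F02 x =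
    (∑ j, dzb 0 (dfr f j) z * dzb 1 (fun y => f y j) z) -
      ∑ j, dzb 1 (dfr f j) z * dzb 0 (fun y => f y j) z := by
  subst hf hz
  rw [LB.F02, h.dbarP, h.dbarP, h.P_eq]
  exact (isDer_dzb _ 0).trace_proj (isDer_dzb _ 1) (h.reg.of_le (by simp)) h.f_ne

theorem NVSec.F20_eq (h : NVSec L κ σ x) {f : C2 → EuclideanSpace ℂ ι}
    (hf : f = loc0 κ (chartAt C2 x) σ) {z : C2} (hz : z = chartAt C2 x x) : L.F20 x =
    (∑ j, dz 0 (dfr f j) z * dz 1 (fun y => f y j) z) -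
      ∑ j, dz 1 (dfr f j) z * dz 0 (fun y => f y j) z := by
  subst hf hz
  rw [LB.F20, h.delP, h.delP, h.P_eq]
  exact (isDer_dz _ 0).trace_proj (isDer_dz _ 1) (h.reg.of_le (by simp)) h.f_ne

theorem NVSec.F11_eq (h : NVSec L κ σ x) {f : C2 → EuclideanSpace ℂ ι}
    (hf : f = loc0 κ (chartAt C2 x) σ) {z : C2} (hz : z = chartAt C2 x x) (k l : Fin 2) :
    L.F11 x k l =
    (∑ j, dz k (dfr f j) z * dzb l (fun y => f y j) z) -
      ∑ j, dzb l (dfr f j) z * dz k (fun y => f y j) z := by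
  subst hf hz
  rw [LB.F11, Matrix.of_apply, h.delP, h.dbarP, h.P_eq]
  exact (isDer_dz _ k).trace_proj (isDer_dzb _ l) (h.reg.of_le (by simp)) h.f_ne

/-! ### the holomorphic structure -/

theorem two_le_inf : (2 : WithTop ℕ∞) ≤ ∞ := by
  have h : ((2 : ℕ∞) : WithTop ℕ∞) ≤ ((⊤ : ℕ∞) : WithTop ℕ∞) := WithTop.coe_le_coe.2 le_top
  exact h

theorem differentiableAt_near {V : Type*} [NormedAddCommGroup V] [NormedSpace ℝ V] {f : C2 → V}
    {z : C2} {n : WithTop ℕ∞} (hf : ContDiffAt ℝ n f z) (hn : 1 ≤ n) :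
    ∀ᶠ y in 𝓝 z, DifferentiableAt ℝ f y := by
  have h1 : ContDiffAt ℝ 1 f z := hf.of_le hn
  filter_upwards [h1.eventually (by simp)] with y hy
  exact hy.differentiableAt (by norm_num)

theorem NVSec.loc_a (h : NVSec L κ σ x) {a : X → Fin 2 → ℂ}
    (ha : ∀ᶠ y in 𝓝 x, ∀ i, L.db0 a κ σ y i = 0) {f : C2 → EuclideanSpace ℂ ι}
    (hf : f = loc0 κ (chartAt C2 x) σ) (i : Fin 2) :
    (fun z => loc1 0 (chartAt C2 x) a z i) =ᶠ[𝓝 (chartAt C2 x x)]
      fun z => -∑ j, dfr f j z * dzb i (fun w => f w j) z := by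
  subst hf
  have hx := mem_chart_source C2 x
  have h1 := (tendsto_symm hx).eventually h.sec
  have h2 := (tendsto_symm hx).eventually ha
  filter_upwards [h1, h2, h.reg.continuousAt.eventually_ne h.f_ne,
    (chartAt C2 x).open_target.mem_nhds (mem_chart_target C2 x),
    differentiableAt_near h.reg (by simp)] with z hz hza hz0 hzt hzd
  have hσ0 : σ ((chartAt C2 x).symm z) ≠ 0 := by
    intro h0
    apply hz0
    rw [loc0, h0, smul_zero]
  have h3 : loc1 0 (chartAt C2 x) a z i = loc1 0 (chartAt C2 x) (conn κ σ) z i := by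
    simp only [loc1]
    congr 1
    refine Finset.sum_congr rfl fun p _ => ?_
    rw [conn_unique L hz hσ0 (hza p)]
  rw [h3, loc1_conn (chart_mem_atlas C2 x) hzt hzd i, inner_div_eq hzd]

theorem dzb_sum_mul {g f : ι → C2 → ℂ} {z : C2} (hg : ∀ j, DifferentiableAt ℝ (g j) z)
    (hf : ∀ j, DifferentiableAt ℝ (f j) z) (k : Fin 2) :
    dzb k (fun y => ∑ j, g j y * f j y) z =
      (∑ j, dzb k (g j) z * f j z) + ∑ j, g j z * dzb k (f j) z := by
  rw [dzb_sum _ fun j _ => (hg j).fun_mul (hf j), ← Finset.sum_add_distrib]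
  refine Finset.sum_congr rfl fun j _ => ?_
  rw [dzb_mul (hg j) (hf j)]
  ring

theorem dz_sum_mul {g f : ι → C2 → ℂ} {z : C2} (hg : ∀ j, DifferentiableAt ℝ (g j) z)
    (hf : ∀ j, DifferentiableAt ℝ (f j) z) (k : Fin 2) :
    dz k (fun y => ∑ j, g j y * f j y) z =
      (∑ j, dz k (g j) z * f j z) + ∑ j, g j z * dz k (f j) z := by
  rw [dz_sum _ fun j _ => (hg j).fun_mul (hf j), ← Finset.sum_add_distrib]
  refine Finset.sum_congr rfl fun j _ => ?_
  rw [dz_mul (hg j) (hf j)]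
  ring

/-- (K2) a holomorphic structure with a nonvanishing solution of `∂̄σ = 0` is integrable -/
theorem NVSec.integrable (h : NVSec L κ σ x) {a : X → Fin 2 → ℂ}
    (ha : ∀ᶠ y in 𝓝 x, ∀ i, L.db0 a κ σ y i = 0) : dbar1 0 a x + L.F02 x = 0 := by
  obtain ⟨f, hf⟩ : ∃ f, f = loc0 κ (chartAt C2 x) σ := ⟨_, rfl⟩
  obtain ⟨z, hz⟩ : ∃ z, z = chartAt C2 x x := ⟨_, rfl⟩
  have hreg : ContDiffAt ℝ ∞ f z := by rw [hf, hz]; exact h.reg
  have hne : f z ≠ 0 := by rw [hf, hz]; exact h.f_ne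
  have hg : ∀ j, DifferentiableAt ℝ (dfr f j) z := fun j =>
    (contDiffAt_dfr hreg hne j).differentiableAt (by simp)
  have hfd : ∀ k j, DifferentiableAt ℝ (dzb k fun w => f w j) z := fun k j =>
    (contDiffAt_dzb (m := 1) ((contDiffAt_coord hreg j).of_le
      two_le_inf) (by norm_num) k).differentiableAt (by norm_num)
  rw [dbar1, dzb_congr (h.loc_a ha hf 1), dzb_congr (h.loc_a ha hf 0), h.F02_eq hf hz, ← hz,
    dzb_neg, dzb_neg, dzb_sum_mul hg (hfd 1), dzb_sum_mul hg (hfd 0)]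
  have hc : ∀ j, dzb 0 (dzb 1 fun w => f w j) z = dzb 1 (dzb 0 fun w => f w j) z := fun j =>
    dzb_dzb_comm ((contDiffAt_coord hreg j).of_le two_le_inf) 0 1
  simp only [hc]
  ring

/-! ### the Chern curvature -/

/-- the local weight `log |f|²` -/
def lgn (f : C2 → EuclideanSpace ℂ ι) (y : C2) : ℂ := ((Real.log (‖f y‖ ^ 2) : ℝ) : ℂ)

theorem contDiffAt_norm_sq_real {n : WithTop ℕ∞} {f : C2 → EuclideanSpace ℂ ι} {z : C2}
    (hf : ContDiffAt ℝ n f z) : ContDiffAt ℝ n (fun y => ‖f y‖ ^ 2) z := by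
  have h1 : (fun y => ‖f y‖ ^ 2) = fun y => Complex.reCLM (‖f y‖ ^ 2 : ℂ) := by
    funext y
    rw [Complex.reCLM_apply, ← Complex.ofReal_pow, Complex.ofReal_re]
  rw [h1]
  exact Complex.reCLM.contDiff.contDiffAt.comp z (contDiffAt_norm_sq hf)

theorem contDiffAt_lgn {n : WithTop ℕ∞} {f : C2 → EuclideanSpace ℂ ι} {z : C2}
    (hf : ContDiffAt ℝ n f z) (h0 : f z ≠ 0) : ContDiffAt ℝ n (lgn f) z :=
  Complex.ofRealCLM.contDiff.contDiffAt.comp z
    ((contDiffAt_norm_sq_real hf).log (pow_ne_zero 2 (norm_ne_zero_iff.2 h0)))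

theorem dz_log {r : C2 → ℝ} {z : C2} (hr : DifferentiableAt ℝ r z) (h0 : r z ≠ 0) (i : Fin 2) :
    dz i (fun y => ((Real.log (r y) : ℝ) : ℂ)) z = dz i (fun y => (r y : ℂ)) z / (r z : ℂ) := by
  have h1 : fderiv ℝ (fun y => ((Real.log (r y) : ℝ) : ℂ)) z =
      Complex.ofRealCLM.comp ((r z)⁻¹ • fderiv ℝ r z) :=
    (Complex.ofRealCLM.hasFDerivAt.comp z (hr.hasFDerivAt.log h0)).fderiv
  have h2 : fderiv ℝ (fun y => (r y : ℂ)) z = Complex.ofRealCLM.comp (fderiv ℝ r z) :=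
    (Complex.ofRealCLM.hasFDerivAt.comp z hr.hasFDerivAt).fderiv
  unfold dz
  rw [h1, h2]
  simp only [ContinuousLinearMap.comp_apply, smul_apply, Complex.ofRealCLM_apply, smul_eq_mul,
    Complex.ofReal_mul, Complex.ofReal_inv]
  ring

theorem dzb_log {r : C2 → ℝ} {z : C2} (hr : DifferentiableAt ℝ r z) (h0 : r z ≠ 0) (i : Fin 2) :
    dzb i (fun y => ((Real.log (r y) : ℝ) : ℂ)) z = dzb i (fun y => (r y : ℂ)) z / (r z : ℂ) := by
  have h1 : fderiv ℝ (fun y => ((Real.log (r y) : ℝ) : ℂ)) z =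
      Complex.ofRealCLM.comp ((r z)⁻¹ • fderiv ℝ r z) :=
    (Complex.ofRealCLM.hasFDerivAt.comp z (hr.hasFDerivAt.log h0)).fderiv
  have h2 : fderiv ℝ (fun y => (r y : ℂ)) z = Complex.ofRealCLM.comp (fderiv ℝ r z) :=
    (Complex.ofRealCLM.hasFDerivAt.comp z hr.hasFDerivAt).fderiv
  unfold dzb
  rw [h1, h2]
  simp only [ContinuousLinearMap.comp_apply, smul_apply, Complex.ofRealCLM_apply, smul_eq_mul,
    Complex.ofReal_mul, Complex.ofReal_inv]
  ring

/-- `∂_i log |f|²` -/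
theorem dz_lgn {f : C2 → EuclideanSpace ℂ ι} {y : C2} (hf : ContDiffAt ℝ 1 f y) (h0 : f y ≠ 0)
    (i : Fin 2) : dz i (lgn f) y =
      conj (∑ j, dfr f j y * dzb i (fun w => f w j) y) + ∑ j, dfr f j y * dz i (fun w => f w j) y := by
  have hr : DifferentiableAt ℝ (fun y => ‖f y‖ ^ 2) y :=
    (contDiffAt_norm_sq_real hf).differentiableAt (by norm_num)
  have hN := norm_sq_ne_zero h0
  have hfj : ∀ j, DifferentiableAt ℝ (fun w => f w j) y := fun j =>
    (contDiffAt_coord hf j).differentiableAt (by norm_num)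
  have h1 := dz_log hr (pow_ne_zero 2 (norm_ne_zero_iff.2 h0)) i
  have h2 : (fun w => ((‖f w‖ ^ 2 : ℝ) : ℂ)) = fun w => ∑ j, conj (f w j) * f w j := by
    funext w
    exact norm_sq_eq (f w)
  have h3 : ∀ j, conj (dfr f j y) = f y j / (‖f y‖ ^ 2 : ℂ) := by
    intro j
    simp [dfr]
  unfold lgn
  rw [h1, h2, dz_sum_mul (fun j => differentiableAt_conj (hfj j)) hfj i, add_div]
  simp only [dz_conj (hfj _), map_sum, map_mul, h3, Finset.sum_div, Complex.ofReal_pow]
  congr 1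
  · exact Finset.sum_congr rfl fun j _ => by ring
  · exact Finset.sum_congr rfl fun j _ => by rw [dfr]; ring

theorem NVSec.loc_abar (h : NVSec L κ σ x) {a : X → Fin 2 → ℂ}
    (ha : ∀ᶠ y in 𝓝 x, ∀ i, L.db0 a κ σ y i = 0) {f : C2 → EuclideanSpace ℂ ι}
    (hf : f = loc0 κ (chartAt C2 x) σ) (i : Fin 2) :
    (fun z => loc10 (chartAt C2 x) (fun y i => -conj (a y i)) z i) =ᶠ[𝓝 (chartAt C2 x x)]
      fun z => dz i (lgn f) z - ∑ j, dfr f j z * dz i (fun w => f w j) z := by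
  have h1 := h.loc_a ha hf i
  have hreg : ContDiffAt ℝ 1 f (chartAt C2 x x) := by rw [hf]; exact h.reg.of_le (by simp)
  have hne : f (chartAt C2 x x) ≠ 0 := by rw [hf]; exact h.f_ne
  filter_upwards [h1, hreg.eventually (by simp), hreg.continuousAt.eventually_ne hne]
    with z hz hz1 hz2
  rw [dz_lgn hz1 hz2, add_sub_cancel_right]
  have h2 : loc10 (chartAt C2 x) (fun y i => -conj (a y i)) z i =
      -conj (loc1 0 (chartAt C2 x) a z i) := by
    simp only [loc10, loc1, zpow_zero, one_smul, smul_eq_mul, map_sum, map_mul, map_one, one_mul,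
      Complex.conj_conj, mul_neg, Finset.sum_neg_distrib]
  rw [h2, hz, map_neg, neg_neg]

theorem dzb_sub' {f g : C2 → ℂ} {z : C2} (hf : DifferentiableAt ℝ f z)
    (hg : DifferentiableAt ℝ g z) (j : Fin 2) :
    dzb j (fun y => f y - g y) z = dzb j f z - dzb j g z := dzb_sub hf hg j

/-- (K3) the Chern curvature is `-∂∂̄ log |σ|²` -/
theorem NVSec.chern11 (h : NVSec L κ σ x) {a : X → Fin 2 → ℂ}
    (ha : ∀ᶠ y in 𝓝 x, ∀ i, L.db0 a κ σ y i = 0) (k l : Fin 2) :
    (L.chern a).f11 x k l =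
      -dz k (dzb l (lgn (loc0 κ (chartAt C2 x) σ))) (chartAt C2 x x) := by
  obtain ⟨f, hf⟩ : ∃ f, f = loc0 κ (chartAt C2 x) σ := ⟨_, rfl⟩
  obtain ⟨z, hz⟩ : ∃ z, z = chartAt C2 x x := ⟨_, rfl⟩
  have hreg : ContDiffAt ℝ ∞ f z := by rw [hf, hz]; exact h.reg
  have hne : f z ≠ 0 := by rw [hf, hz]; exact h.f_ne
  have hg : ∀ j, DifferentiableAt ℝ (dfr f j) z := fun j =>
    (contDiffAt_dfr hreg hne j).differentiableAt (by simp)
  have h2 : ∀ j, ContDiffAt ℝ 2 (fun w => f w j) z := fun j =>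
    (contDiffAt_coord hreg j).of_le two_le_inf
  have hfd : ∀ k j, DifferentiableAt ℝ (dzb k fun w => f w j) z := fun k j =>
    (contDiffAt_dzb (m := 1) (h2 j) (by norm_num) k).differentiableAt (by norm_num)
  have hfd' : ∀ k j, DifferentiableAt ℝ (dz k fun w => f w j) z := fun k j =>
    (contDiffAt_dz (m := 1) (h2 j) (by norm_num) k).differentiableAt (by norm_num)
  have hl : ContDiffAt ℝ 2 (lgn f) z := (contDiffAt_lgn hreg hne).of_le two_le_inf
  have hld : DifferentiableAt ℝ (dz k (lgn f)) z :=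
    (contDiffAt_dz (m := 1) hl (by norm_num) k).differentiableAt (by norm_num)
  have e1 : (L.chern a).f11 x k l = L.F11 x k l + (dz k (fun y => loc1 0 (chartAt C2 x) a y l) z +
      -dzb l (fun y => loc10 (chartAt C2 x) (fun y i => -conj (a y i)) y k) z) := by
    rw [hz]
    rfl
  have hs : DifferentiableAt ℝ (fun y => ∑ j, dfr f j y * dz k (fun w => f w j) y) z :=
    DifferentiableAt.fun_sum fun j _ => (hg j).fun_mul (hfd' k j)
  rw [e1, h.F11_eq hf hz, hz, dz_congr (h.loc_a ha hf l), dzb_congr (h.loc_abar ha hf k), ← hz,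
    dz_neg, dz_sum_mul hg (hfd l), dzb_sub hld hs, dzb_sum_mul hg (hfd' k), ← hf,
    dz_dzb_comm hl k l]
  have hc : ∀ j, dz k (dzb l fun w => f w j) z = dzb l (dz k fun w => f w j) z := fun j =>
    dz_dzb_comm (h2 j) k l
  simp only [hc]
  ring

/-- the Chern curvature has no (0,2)-part -/
theorem NVSec.chern02 (h : NVSec L κ σ x) {a : X → Fin 2 → ℂ}
    (ha : ∀ᶠ y in 𝓝 x, ∀ i, L.db0 a κ σ y i = 0) : (L.chern a).f02 x = 0 := by
  have := h.integrable ha
  rw [add_comm] at this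
  exact this

/-- the Chern curvature has no (2,0)-part -/
theorem NVSec.chern20 (h : NVSec L κ σ x) {a : X → Fin 2 → ℂ}
    (ha : ∀ᶠ y in 𝓝 x, ∀ i, L.db0 a κ σ y i = 0) : (L.chern a).f20 x = 0 := by
  obtain ⟨f, hf⟩ : ∃ f, f = loc0 κ (chartAt C2 x) σ := ⟨_, rfl⟩
  obtain ⟨z, hz⟩ : ∃ z, z = chartAt C2 x x := ⟨_, rfl⟩
  have hreg : ContDiffAt ℝ ∞ f z := by rw [hf, hz]; exact h.reg
  have hne : f z ≠ 0 := by rw [hf, hz]; exact h.f_ne
  have hg : ∀ j, DifferentiableAt ℝ (dfr f j) z := fun j =>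
    (contDiffAt_dfr hreg hne j).differentiableAt (by simp)
  have h2 : ∀ j, ContDiffAt ℝ 2 (fun w => f w j) z := fun j =>
    (contDiffAt_coord hreg j).of_le two_le_inf
  have hfd' : ∀ k j, DifferentiableAt ℝ (dz k fun w => f w j) z := fun k j =>
    (contDiffAt_dz (m := 1) (h2 j) (by norm_num) k).differentiableAt (by norm_num)
  have hl : ContDiffAt ℝ 2 (lgn f) z := (contDiffAt_lgn hreg hne).of_le two_le_inf
  have hld : ∀ k, DifferentiableAt ℝ (dz k (lgn f)) z := fun k =>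
    (contDiffAt_dz (m := 1) hl (by norm_num) k).differentiableAt (by norm_num)
  have hs : ∀ k, DifferentiableAt ℝ (fun y => ∑ j, dfr f j y * dz k (fun w => f w j) y) z :=
    fun k => DifferentiableAt.fun_sum fun j _ => (hg j).fun_mul (hfd' k j)
  have e1 : (L.chern a).f20 x = L.F20 x +
      (dz 0 (fun y => loc10 (chartAt C2 x) (fun y i => -conj (a y i)) y 1) z -
      dz 1 (fun y => loc10 (chartAt C2 x) (fun y i => -conj (a y i)) y 0) z) := by
    rw [hz]
    rfl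
  rw [e1, h.F20_eq hf hz, hz, dz_congr (h.loc_abar ha hf 1), dz_congr (h.loc_abar ha hf 0), ← hz,
    dz_sub (hld 1) (hs 1), dz_sub (hld 0) (hs 0), dz_sum_mul hg (hfd' 1), dz_sum_mul hg (hfd' 0),
    dz_dz_comm hl 0 1]
  have hc : ∀ j, dz 0 (dz 1 fun w => f w j) z = dz 1 (dz 0 fun w => f w j) z := fun j =>
    dz_dz_comm (h2 j) 0 1
  simp only [hc]
  ring

/-- the Chern curvature and the curvature of `P d` differ by the exact form `d(a - ā)` -/
theorem chern_eq_curv (L : LB X ι) (a : X → Fin 2 → ℂ) (x : X) :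
    (L.chern a).f20 x = L.curv.f20 x + (OneF.d ⟨fun y i => -conj (a y i), a⟩).f20 x ∧
    (L.chern a).f11 x = L.curv.f11 x + (OneF.d ⟨fun y i => -conj (a y i), a⟩).f11 x ∧
    (L.chern a).f02 x = L.curv.f02 x + (OneF.d ⟨fun y i => -conj (a y i), a⟩).f02 x :=
  ⟨rfl, rfl, rfl⟩

end curv

end Vale.Agent.P267.H662
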