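import Vale.Agent.P267.H662.KBCurv

/-!
# The canonical bundle as a projector line bundle (helper662, package LB-K)

`KBun X ι` = a line bundle (L, a) with a nowhere zero holomorphic section `σ` of `K^{-1} ⊗ L`,
i.e. (L, a) ≅ K.  `exists_KBun`: it exists on every compact Hausdorff surface.
-/

open scoped Manifold ContDiff Topology ComplexConjugate Matrix ComplexOrder
open Set Filter

set_option linter.unusedSectionVars false
set_option linter.unusedSimpArgs false

noncomputable section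

namespace Vale.Agent.P267.H662

open Vale.Agent.P267.FL

/-- the canonical bundle, given as a projector line bundle (L, a) together with a nowhere zero
holomorphic section `σ` of `K^{-1} ⊗ L` -/
structure KBun (X : Type*) [TopologicalSpace X] [ChartedSpace C2 X] (ι : Type) [Fintype ι]
    [DecidableEq ι] where
  L : LB X ι
  a : X → Fin 2 → ℂ
  hol : L.IsHol a
  σ : X → EuclideanSpace ℂ ι
  sm : Reg0 ∞ (-1) σ
  sec : L.Sec σ
  ne : ∀ x, σ x ≠ 0
  dbar : ∀ x i, L.db0 a (-1) σ x i = 0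

variable {X : Type*} [TopologicalSpace X] [ChartedSpace C2 X]

/-- a chart with a bump function -/
structure ChBump (X : Type*) [TopologicalSpace X] [ChartedSpace C2 X] where
  e : Ch X
  he : e ∈ atlas C2 X
  b : C2 → ℝ
  smooth : ContDiff ℝ ∞ b
  cpt : HasCompactSupport b
  supp : tsupport b ⊆ e.target

open Classical in
/-- the bump function on the manifold -/
def ChBump.φ (B : ChBump X) (x : X) : ℝ := if x ∈ B.e.source then B.b (B.e x) else 0

theorem ChBump.φ_of_mem (B : ChBump X) {x : X} (hx : x ∈ B.e.source) : B.φ x = B.b (B.e x) := by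
  classical
  rw [φ, if_pos hx]

theorem ChBump.φ_of_notMem (B : ChBump X) {x : X} (hx : x ∉ B.e.source) : B.φ x = 0 := by
  classical
  rw [φ, if_neg hx]

theorem ChBump.isCompact_image (B : ChBump X) : IsCompact (B.e.symm '' tsupport B.b) :=
  B.cpt.isCompact.image_of_continuousOn (B.e.continuousOn_symm.mono B.supp)

theorem ChBump.support_subset (B : ChBump X) :
    Function.support B.φ ⊆ B.e.symm '' tsupport B.b := by
  intro x hx
  rw [Function.mem_support] at hx
  by_cases h : x ∈ B.e.source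
  · rw [B.φ_of_mem h] at hx
    exact ⟨B.e x, subset_tsupport _ hx, B.e.left_inv h⟩
  · exact absurd (B.φ_of_notMem h) hx

theorem ChBump.tsupport_subset [T2Space X] (B : ChBump X) : tsupport B.φ ⊆ B.e.source := by
  have h1 : tsupport B.φ ⊆ B.e.symm '' tsupport B.b :=
    closure_minimal B.support_subset B.isCompact_image.isClosed
  intro x hx
  obtain ⟨z, hz, rfl⟩ := h1 hx
  exact B.e.map_target (B.supp hz)

theorem ChBump.eventually_zero [T2Space X] (B : ChBump X) {x : X} (hx : x ∉ B.e.source) :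
    ∀ᶠ y in 𝓝 x, B.φ y = 0 :=
  notMem_tsupport_iff_eventuallyEq.1 fun h => hx (B.tsupport_subset h)

/-- bump functions at the points -/
theorem exists_chBump (x : X) : ∃ B : ChBump X, x ∈ B.e.source ∧ B.b (B.e x) ≠ 0 := by
  obtain ⟨r, hr, hr'⟩ := Metric.isOpen_iff.1 (chartAt C2 x).open_target _ (mem_chart_target C2 x)
  let b : ContDiffBump (chartAt C2 x x) := ⟨r / 4, r / 2, by positivity, by linarith⟩
  refine ⟨⟨chartAt C2 x, chart_mem_atlas C2 x, b, b.contDiff, b.hasCompactSupport, ?_⟩,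
    mem_chart_source C2 x, ?_⟩
  · rw [b.tsupport_eq]
    refine (Metric.closedBall_subset_ball ?_).trans hr'
    change r / 2 < r
    linarith
  · have : (b : C2 → ℝ) (chartAt C2 x x) = 1 :=
      b.one_of_mem_closedBall (Metric.mem_closedBall_self b.rIn_pos.le)
    change (b : C2 → ℝ) (chartAt C2 x x) ≠ 0
    rw [this]
    exact one_ne_zero

theorem exists_finite_chBump [CompactSpace X] [IsManifold 𝓘(ℂ, C2) ω X] :
    ∃ (N : ℕ) (B : Fin N → ChBump X), ∀ x, ∃ i, x ∈ (B i).e.source ∧ (B i).φ x ≠ 0 := by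
  choose B hB hB' using exists_chBump (X := X)
  have hopen : ∀ x : X, {y | y ∈ (B x).e.source ∧ (B x).φ y ≠ 0} ∈ 𝓝 x := by
    intro x
    have h1 : ∀ᶠ y in 𝓝 x, y ∈ (B x).e.source := (B x).e.open_source.mem_nhds (hB x)
    have h2 : ∀ᶠ y in 𝓝 x, (B x).b ((B x).e y) ≠ 0 := by
      have hc : ContinuousAt (fun y => (B x).b ((B x).e y)) x :=
        (B x).smooth.continuous.continuousAt.comp ((B x).e.continuousAt (hB x))
      exact hc.eventually_ne (hB' x)
    filter_upwards [h1, h2] with y hy hy2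
    exact ⟨hy, by rw [(B x).φ_of_mem hy]; exact hy2⟩
  obtain ⟨t, ht⟩ := CompactSpace.elim_nhds_subcover _ hopen
  refine ⟨t.card, fun i => B ((t.equivFin.symm i : t) : X), fun x => ?_⟩
  have hx : x ∈ ⋃ y ∈ t, {z | z ∈ (B y).e.source ∧ (B y).φ z ≠ 0} := by
    rw [ht]
    exact mem_univ x
  simp only [mem_iUnion] at hx
  obtain ⟨y, hy, hxy⟩ := hx
  refine ⟨t.equivFin ⟨y, hy⟩, ?_⟩
  simpa using hxy

section manifold

variable [IsManifold 𝓘(ℂ, C2) ω X]

/-- the section of `K^{-1} ⊗ ℂ^N` -/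
def secOf {N : ℕ} (B : Fin N → ChBump X) (x : X) : EuclideanSpace ℂ (Fin N) :=
  WithLp.toLp 2 fun i => ((B i).φ x : ℂ) * (jac (B i).e x).det

theorem secOf_reg [T2Space X] {N : ℕ} (B : Fin N → ChBump X) : Reg0 ∞ (-1) (secOf B) := by
  rw [reg0_iff]
  intro x
  set e := chartAt C2 x with hed
  have he : e ∈ atlas C2 X := chart_mem_atlas C2 x
  have hx : x ∈ e.source := mem_chart_source C2 x
  refine contDiffAt_of_coord fun i => ?_
  have e1 : (fun y => (loc0 (-1) e (secOf B) y) i) = fun y => (jac e (e.symm y)).det ^ (-1 : ℤ) *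
      (((B i).φ (e.symm y) : ℂ) * (jac (B i).e (e.symm y)).det) := by
    funext y
    simp [loc0, secOf]
  rw [e1]
  by_cases hxi : x ∈ (B i).e.source
  · have h1 : (fun y => (jac e (e.symm y)).det ^ (-1 : ℤ) *
        (((B i).φ (e.symm y) : ℂ) * (jac (B i).e (e.symm y)).det)) =ᶠ[𝓝 (e x)]
        fun y => ((B i).b ((B i).e (e.symm y)) : ℂ) *
          (jacM e (B i).e (e.symm y)).det ^ (-1 : ℤ) := by
      filter_upwards [(isOpen_trans e (B i).e).mem_nhds (mem_trans hx hxi)] with y hy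
      have hys : e.symm y ∈ e.source := e.map_target hy.1
      have hd : (jac (B i).e (e.symm y)).det ≠ 0 := jac_det_ne_zero (B i).he hy.2
      rw [(B i).φ_of_mem hy.2, jac_eq he (B i).he hys hy.2, Matrix.det_mul, mul_zpow, zpow_neg_one]
      field_simp
    refine ContDiffAt.congr_of_eventuallyEq ?_ h1
    have h2 : ContDiffAt ℝ ∞ (fun z => (jacM e (B i).e (e.symm z)).det ^ (-1 : ℤ)) (e x) :=
      ((detz_analyticAt he (B i).he hx hxi (-1)).contDiffAt (n := ∞)).restrict_scalars ℝ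
    have h3 : ContDiffAt ℝ ∞ (fun z => (B i).e (e.symm z)) (e x) :=
      ((trans_analyticAt he (B i).he hx hxi).contDiffAt (n := ∞)).restrict_scalars ℝ
    have h4 : ContDiffAt ℝ ∞ (fun z => (B i).b ((B i).e (e.symm z))) (e x) :=
      (B i).smooth.contDiffAt.comp (e x) h3
    exact (Complex.ofRealCLM.contDiff.contDiffAt.comp (e x) h4).mul h2
  · have h1 : (fun y => (jac e (e.symm y)).det ^ (-1 : ℤ) *
        (((B i).φ (e.symm y) : ℂ) * (jac (B i).e (e.symm y)).det)) =ᶠ[𝓝 (e x)]
        fun _ => (0 : ℂ) := by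
      filter_upwards [(tendsto_symm hx).eventually ((B i).eventually_zero hxi)] with y hy
      rw [hy]
      simp
    exact contDiffAt_const.congr_of_eventuallyEq h1

theorem secOf_ne {N : ℕ} {B : Fin N → ChBump X} {x : X}
    (h : ∃ i, x ∈ (B i).e.source ∧ (B i).φ x ≠ 0) : secOf B x ≠ 0 := by
  obtain ⟨i, hi, hi'⟩ := h
  intro h0
  have h1 : (secOf B x) i = 0 := by rw [h0]; rfl
  have h2 : (secOf B x) i = ((B i).φ x : ℂ) * (jac (B i).e x).det := rfl
  rw [h2] at h1
  rcases mul_eq_zero.1 h1 with h3 | h3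
  · exact hi' (Complex.ofReal_eq_zero.1 h3)
  · exact jac_det_ne_zero (B i).he hi h3

/-- a global nowhere zero smooth section of `K^κ ⊗ L` -/
theorem nvSec_of_reg {ι : Type} [Fintype ι] [DecidableEq ι] {L : LB X ι} {κ : ℤ}
    {σ : X → EuclideanSpace ℂ ι} (hσ : Reg0 ∞ κ σ) (hs : L.Sec σ) (h0 : ∀ x, σ x ≠ 0) (x : X) :
    NVSec L κ σ x :=
  ⟨hσ.contDiffAt (chart_mem_atlas C2 x) (mem_chart_target C2 x), Eventually.of_forall hs, h0 x⟩

/-- (K2) the scalar form `conn κ σ` is a holomorphic structure, for every nowhere zero smooth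
section `σ` of `K^κ ⊗ L` -/
theorem isHol_conn {ι : Type} [Fintype ι] [DecidableEq ι] {L : LB X ι} {κ : ℤ}
    {σ : X → EuclideanSpace ℂ ι} (hσ : Reg0 ∞ κ σ) (hs : L.Sec σ) (h0 : ∀ x, σ x ≠ 0) :
    L.IsHol (conn κ σ) where
  smooth := reg1_conn hσ h0
  integrable x := (nvSec_of_reg hσ hs h0 x).integrable
    (Eventually.of_forall fun y i => db0_conn L (hs y) (h0 y) i)

/-- the line bundle spanned by a nowhere zero smooth section of `K^{-1} ⊗ ℂ^ι` -/
def KBun.ofSec {ι : Type} [Fintype ι] [DecidableEq ι] (σ : X → EuclideanSpace ℂ ι)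
    (hσ : Reg0 ∞ (-1) σ) (h0 : ∀ x, σ x ≠ 0) : KBun X ι where
  L := H662.ofSec (-1) σ hσ h0
  a := conn (-1) σ
  hol := isHol_conn hσ (ofSec_sec (-1) σ hσ h0) h0
  σ := σ
  sm := hσ
  sec := ofSec_sec (-1) σ hσ h0
  ne := h0
  dbar x i := db0_conn _ (ofSec_sec (-1) σ hσ h0 x) (h0 x) i

/-- **the canonical bundle exists as a projector line bundle** -/
theorem exists_KBun [CompactSpace X] [T2Space X] : ∃ N : ℕ, Nonempty (KBun X (Fin N)) := by
  obtain ⟨N, B, hB⟩ := exists_finite_chBump (X := X)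
  exact ⟨N, ⟨KBun.ofSec (secOf B) (secOf_reg B) fun x => secOf_ne (hB x)⟩⟩

end manifold

end Vale.Agent.P267.H662
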