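import Vale.Agent.P267.H662.KTens
import Vale.Agent.P267.H469.Inst
import Vale.Agent.P267.H857.Alg

/-!
# Curvatures of smoothly isomorphic line bundles are cohomologous; canonical bundles
(helper662, package LB-K)
-/

open scoped Manifold ContDiff Topology ComplexConjugate Matrix ComplexOrder
open Set Filter

set_option linter.unusedSectionVars false
set_option linter.unusedSimpArgs false

noncomputable section

namespace Vale.Agent.P267.H662

open Vale.Agent.P267.FL Vale.Agent.P267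

variable {X : Type*} [TopologicalSpace X] [ChartedSpace C2 X] [IsManifold 𝓘(ℂ, C2) ω X]

/-! ### linearity of `d` -/

theorem d_sub {A B : OneF X} (hA : A.Smooth) (hB : B.Smooth) : (A - B).d = A.d - B.d := by
  have h := (H469.D1 (X := X)).map_sub (⟨A.f10, hA.s10⟩, ⟨A.f01, hA.s01⟩)
    (⟨B.f10, hB.s10⟩, ⟨B.f01, hB.s01⟩)
  exact congrArg H469.toF h

theorem d_add {A B : OneF X} (hA : A.Smooth) (hB : B.Smooth) : (A + B).d = A.d + B.d := by
  have h := (H469.D1 (X := X)).map_add (⟨A.f10, hA.s10⟩, ⟨A.f01, hA.s01⟩)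
    (⟨B.f10, hB.s10⟩, ⟨B.f01, hB.s01⟩)
  exact congrArg H469.toF h

theorem smooth_sub {A B : OneF X} (hA : A.Smooth) (hB : B.Smooth) : (A - B).Smooth :=
  ⟨(H469.S10 X).sub_mem hA.s10 hB.s10, (H469.S01 X).sub_mem hA.s01 hB.s01⟩

theorem smooth_add {A B : OneF X} (hA : A.Smooth) (hB : B.Smooth) : (A + B).Smooth :=
  ⟨(H469.S10 X).add_mem hA.s10 hB.s10, (H469.S01 X).add_mem hA.s01 hB.s01⟩

/-- the imaginary one-form `a - ā` -/
def imA (a : X → Fin 2 → ℂ) : OneF X := ⟨fun y i => -conj (a y i), a⟩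

theorem imA_smooth {a : X → Fin 2 → ℂ} (ha : Reg1 ∞ 0 a) : (imA a).Smooth where
  s10 := by
    have h1 : (fun y i => -conj (a y i)) = (-1 : ℂ) • H469.cj1 a := by
      funext y i
      simp [H469.cj1]
    change Reg10 ∞ (fun y i => -conj (a y i))
    rw [h1]
    exact (H469.S10 X).smul_mem _ (H469.r1cj ha)
  s01 := ha

variable {ι : Type} [Fintype ι] [DecidableEq ι] {ι' : Type} [Fintype ι'] [DecidableEq ι']

theorem chern_eq (L : LB X ι) (a : X → Fin 2 → ℂ) : L.chern a = L.curv + (imA a).d := rfl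

/-! ### the logarithm of the ratio of two sections -/

/-- `log (|σ|² / |σ'|²)` -/
def lrat (σ : X → EuclideanSpace ℂ ι) (σ' : X → EuclideanSpace ℂ ι') (x : X) : ℂ :=
  ((Real.log (‖σ x‖ ^ 2) - Real.log (‖σ' x‖ ^ 2) : ℝ) : ℂ)

variable {L : LB X ι} {L' : LB X ι'} {κ : ℤ} {σ : X → EuclideanSpace ℂ ι}
  {σ' : X → EuclideanSpace ℂ ι'}

theorem lgn_loc0 {e : Ch X} (he : e ∈ atlas C2 X) {z : C2} (hz : z ∈ e.target)
    (h0 : ∀ x, σ x ≠ 0) : lgn (loc0 κ e σ) z =
      ((Real.log (‖(jac e (e.symm z)).det ^ κ‖ ^ 2) + Real.log (‖σ (e.symm z)‖ ^ 2) : ℝ) : ℂ) := by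
  have hd : (jac e (e.symm z)).det ≠ 0 := jac_det_ne_zero he (e.map_target hz)
  rw [lgn, loc0, norm_smul, mul_pow, Real.log_mul]
  · exact pow_ne_zero 2 (norm_ne_zero_iff.2 (zpow_ne_zero κ hd))
  · exact pow_ne_zero 2 (norm_ne_zero_iff.2 (h0 _))

theorem lrat_chart {e : Ch X} (he : e ∈ atlas C2 X) {z : C2} (hz : z ∈ e.target)
    (h0 : ∀ x, σ x ≠ 0) (h0' : ∀ x, σ' x ≠ 0) :
    loc0 0 e (lrat σ σ') z = lgn (loc0 κ e σ) z - lgn (loc0 κ e σ') z := by
  rw [lgn_loc0 he hz h0, lgn_loc0 he hz h0', LB.loc0_zero, Function.comp_apply, lrat]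
  push_cast
  ring

theorem reg0_lrat (hσ : Reg0 ∞ κ σ) (hσ' : Reg0 ∞ κ σ') (h0 : ∀ x, σ x ≠ 0)
    (h0' : ∀ x, σ' x ≠ 0) : Reg0 ∞ 0 (lrat σ σ') := by
  intro e he z hz
  have hd : (jac e (e.symm z)).det ≠ 0 := jac_det_ne_zero he (e.map_target hz)
  have h1 : loc0 0 e (lrat σ σ') =ᶠ[𝓝 z] fun y => lgn (loc0 κ e σ) y - lgn (loc0 κ e σ') y := by
    filter_upwards [e.open_target.mem_nhds hz] with y hy
    exact lrat_chart he hy h0 h0'
  refine (ContDiffAt.congr_of_eventuallyEq ?_ h1).contDiffWithinAt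
  exact (contDiffAt_lgn (hσ.contDiffAt he hz) (smul_ne_zero (zpow_ne_zero κ hd) (h0 _))).sub
    (contDiffAt_lgn (hσ'.contDiffAt he hz) (smul_ne_zero (zpow_ne_zero κ hd) (h0' _)))

/-- the Chern curvatures of two structures with nowhere zero holomorphic sections of the same
weight differ by `-∂∂̄` of a global function -/
theorem chern_sub_chern {a a' : X → Fin 2 → ℂ} (hσ : Reg0 ∞ κ σ) (hs : L.Sec σ)
    (h0 : ∀ x, σ x ≠ 0) (ha : ∀ x i, L.db0 a κ σ x i = 0) (hσ' : Reg0 ∞ κ σ') (hs' : L'.Sec σ')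
    (h0' : ∀ x, σ' x ≠ 0) (ha' : ∀ x i, L'.db0 a' κ σ' x i = 0) :
    L.chern a - L'.chern a' = ⟨0, -ddb (lrat σ σ'), 0⟩ := by
  have hN : ∀ x, NVSec L κ σ x := nvSec_of_reg hσ hs h0
  have hN' : ∀ x, NVSec L' κ σ' x := nvSec_of_reg hσ' hs' h0'
  have hE : ∀ x, ∀ᶠ y in 𝓝 x, ∀ i, L.db0 a κ σ y i = 0 := fun x => Eventually.of_forall ha
  have hE' : ∀ x, ∀ᶠ y in 𝓝 x, ∀ i, L'.db0 a' κ σ' y i = 0 := fun x => Eventually.of_forall ha'
  refine TwoF.ext ?_ ?_ ?_
  · funext x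
    simp only [TwoF.f20_sub, Pi.sub_apply, Pi.zero_apply]
    rw [(hN x).chern20 (hE x), (hN' x).chern20 (hE' x), sub_zero]
  · funext x
    ext k l
    simp only [TwoF.f11_sub, Pi.sub_apply, Pi.neg_apply, Matrix.sub_apply, Matrix.neg_apply]
    rw [(hN x).chern11 (hE x), (hN' x).chern11 (hE' x)]
    set e := chartAt C2 x with he_def
    have he : e ∈ atlas C2 X := chart_mem_atlas C2 x
    have hex : e x ∈ e.target := mem_chart_target C2 x
    have hl : ContDiffAt ℝ 2 (lgn (loc0 κ e σ)) (e x) :=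
      (contDiffAt_lgn (hN x).reg (hN x).f_ne).of_le two_le_inf
    have hl' : ContDiffAt ℝ 2 (lgn (loc0 κ e σ')) (e x) :=
      (contDiffAt_lgn (hN' x).reg (hN' x).f_ne).of_le two_le_inf
    have h1 : (fun z => loc1 0 e (dbar0 0 (lrat σ σ')) z l) =ᶠ[𝓝 (e x)]
        fun z => dzb l (lgn (loc0 κ e σ)) z - dzb l (lgn (loc0 κ e σ')) z := by
      filter_upwards [e.open_target.mem_nhds hex, differentiableAt_near hl (by norm_num),
        differentiableAt_near hl' (by norm_num)] with z hz hz1 hz2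
      have hr := reg0_lrat hσ hσ' h0 h0'
      rw [loc1_dbar0 he hz ((hr.contDiffAt he hz).differentiableAt (by simp)) l]
      have h2 : loc0 0 e (lrat σ σ') =ᶠ[𝓝 z]
          fun y => lgn (loc0 κ e σ) y - lgn (loc0 κ e σ') y := by
        filter_upwards [e.open_target.mem_nhds hz] with y hy
        exact lrat_chart he hy h0 h0'
      rw [dzb_congr h2, dzb_sub hz1 hz2]
    have h2 : ddb (lrat σ σ') x k l =
        dz k (fun z => loc1 0 e (dbar0 0 (lrat σ σ')) z l) (e x) := rfl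
    rw [h2, dz_congr h1, dz_sub]
    · ring
    · exact (contDiffAt_dzb (m := 1) hl (by norm_num) l).differentiableAt (by norm_num)
    · exact (contDiffAt_dzb (m := 1) hl' (by norm_num) l).differentiableAt (by norm_num)
  · funext x
    simp only [TwoF.f02_sub, Pi.sub_apply, Pi.zero_apply]
    rw [(hN x).chern02 (hE x), (hN' x).chern02 (hE' x), sub_zero]

theorem ddb_eq_d {u : X → ℂ} (hu : Reg0 ∞ 0 u) :
    (⟨0, ddb u, 0⟩ : TwoF X) = (⟨0, dbar0 0 u⟩ : OneF X).d := by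
  have h1 : del10 (0 : X → Fin 2 → ℂ) = 0 := by
    funext x
    have : ∀ i, (fun z => loc10 (chartAt C2 x) (0 : X → Fin 2 → ℂ) z i) = fun _ => (0 : ℂ) := by
      intro i
      funext z
      simp [loc10]
    rw [del10, this, this]
    simp
  have h2 : dbar10 (0 : X → Fin 2 → ℂ) = 0 := by
    funext x
    ext i j
    have : (fun z => loc10 (chartAt C2 x) (0 : X → Fin 2 → ℂ) z i) = fun _ => (0 : ℂ) := by
      funext z
      simp [loc10]
    rw [dbar10, Matrix.of_apply, this]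
    simp
  refine TwoF.ext ?_ ?_ ?_
  · exact h1.symm
  · change ddb u = del1 (dbar0 0 u) + dbar10 0
    rw [h2, add_zero]
    rfl
  · exact (H469.dbar1_dbar0 hu).symm

/-- **Curvatures of smoothly isomorphic bundles.** If `K^κ ⊗ L` and `K^κ ⊗ L'` are smoothly
trivial, then the curvatures of `L` and `L'` differ by an exact form. -/
theorem curv_sub_exact (hσ : Reg0 ∞ κ σ) (hs : L.Sec σ) (h0 : ∀ x, σ x ≠ 0)
    (hσ' : Reg0 ∞ κ σ') (hs' : L'.Sec σ') (h0' : ∀ x, σ' x ≠ 0) :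
    ∃ A : OneF X, A.Smooth ∧ A.d = L.curv - L'.curv := by
  have ha := reg1_conn hσ h0
  have ha' := reg1_conn hσ' h0'
  have hu : Reg0 ∞ 0 (lrat σ σ') := reg0_lrat hσ hσ' h0 h0'
  have hu1 : Reg1 ∞ 0 (dbar0 0 (lrat σ σ')) := H469.reg_dbar0 hu
  have hB : (⟨0, dbar0 0 (lrat σ σ')⟩ : OneF X).Smooth := ⟨(H469.S10 X).zero_mem, hu1⟩
  have h1 := chern_sub_chern hσ hs h0 (fun x i => db0_conn L (hs x) (h0 x) i) hσ' hs' h0'
    (fun x i => db0_conn L' (hs' x) (h0' x) i)
  have h2 : (⟨0, -ddb (lrat σ σ'), 0⟩ : TwoF X) = -(⟨0, dbar0 0 (lrat σ σ')⟩ : OneF X).d := by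
    rw [← ddb_eq_d hu]
    refine TwoF.ext ?_ rfl ?_ <;> simp
  have hz : (0 : OneF X).Smooth := ⟨(H469.S10 X).zero_mem, (H469.S01 X).zero_mem⟩
  have hz' : (0 : OneF X).d = 0 := by
    have := d_sub hz hz
    simpa using this
  refine ⟨0 - ⟨0, dbar0 0 (lrat σ σ')⟩ - (imA (conn κ σ) - imA (conn κ σ')),
    smooth_sub (smooth_sub hz hB) (smooth_sub (imA_smooth ha) (imA_smooth ha')), ?_⟩
  rw [d_sub (smooth_sub hz hB) (smooth_sub (imA_smooth ha) (imA_smooth ha')), d_sub hz hB,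
    d_sub (imA_smooth ha) (imA_smooth ha'), hz', zero_sub, ← h2, ← h1, chern_eq, chern_eq]
  abel

/-- two bundles which are smoothly isomorphic to the canonical bundle have cohomologous
curvatures -/
theorem canon_exact {K : LB X ι} {K' : LB X ι'} (hK : RR.IsCanon K) (hK' : RR.IsCanon K') :
    ∃ A : OneF X, A.Smooth ∧ A.d = K.curv - K'.curv := by
  obtain ⟨σ, h1, h2, h3⟩ := hK
  obtain ⟨σ', h1', h2', h3'⟩ := hK'
  exact curv_sub_exact h1 h2 h3 h1' h2' h3'

/-- a bundle smoothly isomorphic to `K` exists -/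
theorem exists_isCanon [CompactSpace X] [T2Space X] :
    ∃ (N : ℕ) (K : LB X (Fin N)), RR.IsCanon K := by
  obtain ⟨N, ⟨K⟩⟩ := exists_KBun (X := X)
  exact ⟨N, K.L, K.isCanon⟩

/-- a smoothly trivial bundle has exact curvature -/
theorem triv_exact (hL : L.IsSmoothTrivial) : ∃ A : OneF X, A.Smooth ∧ A.d = L.curv := by
  obtain ⟨σ, h1, h2, h3⟩ := hL
  have ht : (LB.triv (X := X) (0 : Fin 1)).Sec fun _ => EuclideanSpace.single 0 (1 : ℂ) := by
    intro x
    ext i
    fin_cases i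
    simp [LB.triv, LB.act]
  have hr : Reg0 ∞ 0 fun _ : X => EuclideanSpace.single (0 : Fin 1) (1 : ℂ) := by
    rw [reg0_iff_at]
    exact fun x => at0_const
  obtain ⟨A, hA, hA'⟩ := curv_sub_exact h1 h2 h3 hr ht (fun x => by simp)
  refine ⟨A, hA, ?_⟩
  rw [hA']
  have h4 : (LB.triv (X := X) (0 : Fin 1)).curv = 0 := by
    have hd : ∀ x k, (Matrix.of fun i j => dbar0 0
        (fun y => (LB.triv (X := X) (0 : Fin 1)).P y i j) x k) = 0 := by
      intro x k
      ext i j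
      have : (fun y => (LB.triv (X := X) (0 : Fin 1)).P y i j) =
          fun _ => (Matrix.single (0 : Fin 1) 0 (1 : ℂ)) i j := rfl
      rw [Matrix.of_apply, this, dbar0_const]
      rfl
    have hd' : ∀ x k, (Matrix.of fun i j => del0
        (fun y => (LB.triv (X := X) (0 : Fin 1)).P y i j) x k) = 0 := by
      intro x k
      ext i j
      have : (fun y => (LB.triv (X := X) (0 : Fin 1)).P y i j) =
          fun _ => (Matrix.single (0 : Fin 1) 0 (1 : ℂ)) i j := rfl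
      rw [Matrix.of_apply, this, del0]
      simp
    refine TwoF.ext ?_ ?_ ?_
    · funext x
      change (LB.triv (X := X) (0 : Fin 1)).F20 x = 0
      rw [LB.F20, hd', hd']
      simp
    · funext x
      ext k l
      change (LB.triv (X := X) (0 : Fin 1)).F11 x k l = 0
      rw [LB.F11, Matrix.of_apply, hd', hd]
      simp
    · funext x
      change (LB.triv (X := X) (0 : Fin 1)).F02 x = 0
      rw [LB.F02, hd, hd]
      simp
  rw [h4, sub_zero]

end Vale.Agent.P267.H662
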