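import Vale.Agent.P267.H662.KTens
import Vale.Agent.P267.H877.Trans

/-!
# Pullback of canonical bundles along chart preserving maps; local frames
(helper662, package LB-K, (K4))
-/

open scoped Manifold ContDiff Topology ComplexConjugate Matrix ComplexOrder
open Set Filter

set_option linter.unusedSectionVars false
set_option linter.unusedSimpArgs false

noncomputable section

namespace Vale.Agent.P267.H662

open Vale.Agent.P267.FL Vale.Agent.P267 Vale.Agent.P267.XT

variable {X : Type*} [TopologicalSpace X] [ChartedSpace C2 X] [IsManifold 𝓘(ℂ, C2) ω X]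
variable {Y : Type*} [TopologicalSpace Y] [ChartedSpace C2 Y] [IsManifold 𝓘(ℂ, C2) ω Y]
variable {ι : Type} [Fintype ι] [DecidableEq ι]

/-- pullback of the canonical bundle -/
def KBun.pull {g : Y → X} (hg : ChartMap g) (K : KBun X ι) : KBun Y ι where
  L := hg.lb K.L
  a := fun y => K.a (g y)
  hol := hg.lb_isHol K.hol
  σ := fun y => K.σ (g y)
  sm := hg.reg0_comp K.sm
  sec := hg.lb_sec K.sec
  ne y := K.ne (g y)
  dbar y i := by
    have := congrFun (hg.lb_db0 K.L K.a (-1) K.σ y) i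
    rw [this]
    exact K.dbar (g y) i

theorem isCanon_pull {g : Y → X} (hg : ChartMap g) {K : LB X ι} (h : RR.IsCanon K) :
    RR.IsCanon (hg.lb K) := by
  obtain ⟨σ, h1, h2, h3⟩ := h
  exact ⟨fun y => σ (g y), hg.reg0_comp h1, hg.lb_sec h2, fun y => h3 (g y)⟩

/-! ### local holomorphic frames: `dz_0 ∧ dz_1` of a chart -/

/-- the section `dz_0 ∧ dz_1` of the chart `e`, as a local section of `K.L` -/
def KBun.frame (K : KBun X ι) (e : Ch X) (x : X) : EuclideanSpace ℂ ι :=
  (jac e x).det ^ (-1 : ℤ) • K.σ x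

theorem KBun.frame_eq (K : KBun X ι) {e : Ch X} {x : X} (hx : x ∈ e.source) :
    K.frame e x = loc0 (-1) e K.σ (e x) := by
  rw [loc0_source hx]
  rfl

theorem KBun.frame_sec (K : KBun X ι) (e : Ch X) (x : X) :
    LB.act (K.L.P x) (K.frame e x) = K.frame e x := by
  rw [KBun.frame, act_smul, K.sec x]

theorem KBun.frame_ne (K : KBun X ι) {e : Ch X} (he : e ∈ atlas C2 X) {x : X}
    (hx : x ∈ e.source) : K.frame e x ≠ 0 :=
  smul_ne_zero (zpow_ne_zero _ (jac_det_ne_zero he hx)) (K.ne x)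

theorem KBun.frame_change (K : KBun X ι) {e e' : Ch X} (he : e ∈ atlas C2 X)
    (he' : e' ∈ atlas C2 X) {x : X} (hx : x ∈ e.source) (hx' : x ∈ e'.source) :
    K.frame e' x = (jacM e e' x).det • K.frame e x := by
  have hd := jacM_det_ne_zero he he' hx hx'
  rw [K.frame_eq hx, K.frame_eq hx', loc0_change he he' hx hx', smul_smul, zpow_neg_one,
    mul_inv_cancel₀ hd, one_smul]

theorem KBun.loc0_frame (K : KBun X ι) {e : Ch X} {z : C2} :
    loc0 0 e (K.frame e) z = loc0 (-1) e K.σ z := by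
  rw [LB.loc0_zero]
  rfl

theorem KBun.frame_smooth (K : KBun X ι) {e : Ch X} (he : e ∈ atlas C2 X) {x : X}
    (hx : x ∈ e.source) : At0 ∞ 0 (K.frame e) x := by
  refine at0_of_chart he hx ?_
  refine (K.sm.contDiffAt he (e.map_source hx)).congr_of_eventuallyEq ?_
  exact Eventually.of_forall fun z => K.loc0_frame

/-- the frame is holomorphic -/
theorem KBun.frame_db0 (K : KBun X ι) {e : Ch X} (he : e ∈ atlas C2 X) {x : X}
    (hx : x ∈ e.source) (i : Fin 2) : K.L.db0 K.a 0 (K.frame e) x i = 0 := by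
  -- multiply by the holomorphic function `det`
  set e₀ := chartAt C2 x with he₀d
  have he₀ : e₀ ∈ atlas C2 X := chart_mem_atlas C2 x
  have hx₀ : x ∈ e₀.source := mem_chart_source C2 x
  have h1 : loc0 0 e₀ (K.frame e) =ᶠ[𝓝 (e₀ x)] fun z =>
      (jacM e₀ e (e₀.symm z)).det • loc0 (-1) e₀ K.σ z := by
    filter_upwards [(isOpen_trans e₀ e).mem_nhds (mem_trans hx₀ hx)] with z hz
    have h2 := K.frame_change he₀ he (e₀.map_target hz.1) hz.2
    have h3 := K.frame_eq (e := e₀) (e₀.map_target hz.1)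
    rw [e₀.right_inv hz.1] at h3
    rw [LB.loc0_zero, Function.comp_apply, h2, h3]
  have hd : DifferentiableAt ℂ (fun z => (jacM e₀ e (e₀.symm z)).det) (e₀ x) :=
    (det_analyticAt he₀ he hx₀ hx).differentiableAt
  have hs : DifferentiableAt ℝ (loc0 (-1) e₀ K.σ) (e₀ x) :=
    (K.sm.contDiffAt he₀ (e₀.map_source hx₀)).differentiableAt (by simp)
  have h4 : dbar0 0 (K.frame e) x i = (jacM e₀ e x).det • dbar0 (-1) K.σ x i := by
    rw [dbar0, dzb_congr h1, dzb_smul (hd.restrictScalars ℝ) hs, dzb_of_hol hd, zero_smul,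
      add_zero, e₀.left_inv hx₀]
    rfl
  have h5 : K.frame e x = (jacM e₀ e x).det • K.σ x := by
    have h2 := K.frame_change he₀ he hx₀ hx
    have h3 := K.frame_eq (e := e₀) hx₀
    rw [loc0_chartAt] at h3
    rw [h2, h3]
  rw [LB.db0, h4, h5, act_smul, smul_comm (K.a x i), ← smul_add]
  have := K.dbar x i
  rw [LB.db0] at this
  rw [this, smul_zero]

end Vale.Agent.P267.H662
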