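import Vale.Agent.P267.H662.LCoh

/-!
# Tensor products; multiplication by the section `σ` of `K^{-1} ⊗ K` (helper662, package LB-K, (K1))
-/

open scoped Manifold ContDiff Topology ComplexConjugate Matrix ComplexOrder
open Set Filter

set_option linter.unusedSectionVars false
set_option linter.unusedSimpArgs false

noncomputable section

namespace Vale.Agent.P267.H662

open Vale.Agent.P267.FL Vale.Agent.P267

variable {ι : Type} [Fintype ι] [DecidableEq ι] {ι' : Type} [Fintype ι'] [DecidableEq ι']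

/-! ### the tensor product of vectors -/

/-- tensor product of vectors -/
def tens (ι ι' : Type) [Fintype ι] [Fintype ι'] :
    EuclideanSpace ℂ ι →L[ℂ] EuclideanSpace ℂ ι' →L[ℂ] EuclideanSpace ℂ (ι × ι') :=
  LinearMap.toContinuousLinearMap
    ((LinearMap.toContinuousLinearMap (𝕜 := ℂ) (E := EuclideanSpace ℂ ι')
        (F' := EuclideanSpace ℂ (ι × ι'))).toLinearMap ∘ₗ
      (LinearMap.mk₂ ℂ (fun (v : EuclideanSpace ℂ ι) (w : EuclideanSpace ℂ ι') =>
        (WithLp.toLp 2 fun p => v p.1 * w p.2 : EuclideanSpace ℂ (ι × ι')))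
        (fun v v' w => by ext p; simp [add_mul])
        (fun c v w => by ext p; simp [mul_assoc])
        (fun v w w' => by ext p; simp [mul_add])
        (fun c v w => by ext p; simp; ring)))

@[simp] theorem tens_apply (v : EuclideanSpace ℂ ι) (w : EuclideanSpace ℂ ι') (p : ι × ι') :
    tens ι ι' v w p = v p.1 * w p.2 := rfl

/-- contraction of the second factor -/
def ctr (ι ι' : Type) [Fintype ι] [Fintype ι'] :
    EuclideanSpace ℂ ι' →L[ℂ] EuclideanSpace ℂ (ι × ι') →L[ℂ] EuclideanSpace ℂ ι :=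
  LinearMap.toContinuousLinearMap
    ((LinearMap.toContinuousLinearMap (𝕜 := ℂ) (E := EuclideanSpace ℂ (ι × ι'))
        (F' := EuclideanSpace ℂ ι)).toLinearMap ∘ₗ
      (LinearMap.mk₂ ℂ (fun (w : EuclideanSpace ℂ ι') (u : EuclideanSpace ℂ (ι × ι')) =>
        (WithLp.toLp 2 fun i => ∑ j, u (i, j) * w j : EuclideanSpace ℂ ι))
        (fun w w' u => by ext i; simp [mul_add, Finset.sum_add_distrib])
        (fun c w u => by
          ext i
          simp only [PiLp.smul_apply, smul_eq_mul, Finset.mul_sum]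
          exact Finset.sum_congr rfl fun j _ => by ring)
        (fun w u u' => by ext i; simp [add_mul, Finset.sum_add_distrib])
        (fun c w u => by
          ext i
          simp only [PiLp.smul_apply, smul_eq_mul, Finset.mul_sum]
          exact Finset.sum_congr rfl fun j _ => by ring)))

@[simp] theorem ctr_apply (w : EuclideanSpace ℂ ι') (u : EuclideanSpace ℂ (ι × ι')) (i : ι) :
    ctr ι ι' w u i = ∑ j, u (i, j) * w j := rfl

theorem act_apply (M : Matrix ι ι ℂ) (v : EuclideanSpace ℂ ι) (i : ι) :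
    LB.act M v i = ∑ j, M i j * v j := rfl

theorem act_kron (M : Matrix ι ι ℂ) (N : Matrix ι' ι' ℂ) (v : EuclideanSpace ℂ ι)
    (w : EuclideanSpace ℂ ι') :
    LB.act (Matrix.kroneckerMap (· * ·) M N) (tens ι ι' v w) =
      tens ι ι' (LB.act M v) (LB.act N w) := by
  ext p
  rw [tens_apply, act_apply, act_apply, act_apply, Fintype.sum_prod_type, Finset.sum_mul_sum]
  refine Finset.sum_congr rfl fun i _ => Finset.sum_congr rfl fun j _ => ?_
  rw [tens_apply, Matrix.kroneckerMap_apply]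
  ring

section

variable {X : Type*} [TopologicalSpace X] [ChartedSpace C2 X] [IsManifold 𝓘(ℂ, C2) ω X]
variable {L : LB X ι} {L' : LB X ι'} {a a' : X → Fin 2 → ℂ} {κ₁ κ₂ : ℤ}

theorem tensor_P (L : LB X ι) (L' : LB X ι') (x : X) :
    (L.tensor L').P x = Matrix.kroneckerMap (· * ·) (L.P x) (L'.P x) := rfl

theorem reg0_tens {s : X → EuclideanSpace ℂ ι} {t : X → EuclideanSpace ℂ ι'}
    (hs : Reg0 ∞ κ₁ s) (ht : Reg0 ∞ κ₂ t) :
    Reg0 ∞ (κ₁ + κ₂) fun x => tens ι ι' (s x) (t x) := by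
  rw [reg0_iff_at]
  exact fun x => At0.bilin (B := tens ι ι') (hs.at x) (ht.at x)

theorem sec_tens {s : X → EuclideanSpace ℂ ι} {t : X → EuclideanSpace ℂ ι'} (hs : L.Sec s)
    (ht : L'.Sec t) : (L.tensor L').Sec fun x => tens ι ι' (s x) (t x) := fun x => by
  rw [tensor_P, act_kron, hs x, ht x]

/-- Leibniz rule for the tensor product of sections -/
theorem db0_tens {s : X → EuclideanSpace ℂ ι} {t : X → EuclideanSpace ℂ ι'} {x : X}
    (hs : At0 1 κ₁ s x) (ht : At0 1 κ₂ t x) (hsP : LB.act (L.P x) (s x) = s x)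
    (htP : LB.act (L'.P x) (t x) = t x) (i : Fin 2) :
    (L.tensor L').db0 (a + a') (κ₁ + κ₂) (fun y => tens ι ι' (s y) (t y)) x i =
      tens ι ι' (L.db0 a κ₁ s x i) (t x) + tens ι ι' (s x) (L'.db0 a' κ₂ t x i) := by
  have h1 : dbar0 (κ₁ + κ₂) (fun y => tens ι ι' (s y) (t y)) x i =
      tens ι ι' (dbar0 κ₁ s x i) (t x) + tens ι ι' (s x) (dbar0 κ₂ t x i) :=
    dbar0_bilin (B := tens ι ι') hs ht i
  rw [LB.db0, h1, act_add, tensor_P, act_kron, act_kron, hsP, htP, LB.db0, LB.db0]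
  simp only [map_add, map_smul, add_apply, smul_apply, Pi.add_apply]
  module

/-- Leibniz rule for the tensor product of a (0,1)-form and a section -/
theorem db1_tens {w : X → Fin 2 → EuclideanSpace ℂ ι} {t : X → EuclideanSpace ℂ ι'} {x : X}
    (hw : At1 1 κ₁ w x) (ht : At0 1 κ₂ t x) (hwP : ∀ i, LB.act (L.P x) (w x i) = w x i)
    (htP : LB.act (L'.P x) (t x) = t x) :
    (L.tensor L').db1 (a + a') (κ₁ + κ₂) (fun y i => tens ι ι' (w y i) (t y)) x =
      tens ι ι' (L.db1 a κ₁ w x) (t x) - (tens ι ι' (w x 0) (L'.db0 a' κ₂ t x 1) -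
        tens ι ι' (w x 1) (L'.db0 a' κ₂ t x 0)) := by
  have h1 : dbar1 (κ₁ + κ₂) (fun y i => tens ι ι' (w y i) (t y)) x =
      tens ι ι' (dbar1 κ₁ w x) (t x) - (tens ι ι' (w x 0) (dbar0 κ₂ t x 1) -
        tens ι ι' (w x 1) (dbar0 κ₂ t x 0)) :=
    dbar1_bilin' (B := tens ι ι') hw ht
  rw [LB.db1, h1, act_sub, act_sub, tensor_P, act_kron, act_kron, act_kron, hwP, hwP, htP, LB.db0,
    LB.db0, LB.db1]
  simp only [map_add, map_sub, map_smul, add_apply, sub_apply, smul_apply, Pi.add_apply]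
  module

/-! ### the dual of a nowhere zero section -/

/-- the dual section `conj σ / |σ|²` -/
def dsec (σ : X → EuclideanSpace ℂ ι) (x : X) : EuclideanSpace ℂ ι :=
  WithLp.toLp 2 fun j => conj (σ x j) / (‖σ x‖ ^ 2 : ℂ)

theorem dsec_apply (σ : X → EuclideanSpace ℂ ι) (x : X) (j : ι) :
    dsec σ x j = conj (σ x j) / (‖σ x‖ ^ 2 : ℂ) := rfl

theorem sum_mul_dsec {σ : X → EuclideanSpace ℂ ι} {x : X} (h : σ x ≠ 0) :
    ∑ j, σ x j * dsec σ x j = 1 := by
  have h1 := norm_sq_ne_zero h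
  have h2 := norm_sq_eq (σ x)
  push_cast at h2
  have : ∀ j, σ x j * dsec σ x j = (conj (σ x j) * σ x j) / (‖σ x‖ ^ 2 : ℂ) := fun j => by
    rw [dsec_apply]; ring
  simp only [this]
  rw [← Finset.sum_div, ← h2, div_self h1]

theorem P_eq_dsec {σ : X → EuclideanSpace ℂ ι} {x : X} (hs : LB.act (L.P x) (σ x) = σ x)
    (h0 : σ x ≠ 0) (i j : ι) : L.P x i j = σ x i * dsec σ x j := by
  rw [P_eq_proj L hs h0, dsec_apply]
  simp only [proj, Matrix.of_apply]
  ring

theorem loc0_dsec {κ : ℤ} {σ : X → EuclideanSpace ℂ ι} {e : Ch X} (he : e ∈ atlas C2 X) {z : C2}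
    (hz : z ∈ e.target) (j : ι) :
    (loc0 (-κ) e (dsec σ) z) j = dfr (loc0 κ e σ) j z := by
  have hd : (jac e (e.symm z)).det ≠ 0 := jac_det_ne_zero he (e.map_target hz)
  set c : ℂ := (jac e (e.symm z)).det ^ κ with hc
  have hc0 : c ≠ 0 := zpow_ne_zero κ hd
  have h1 : (loc0 (-κ) e (dsec σ) z) j = c⁻¹ * (conj (σ (e.symm z) j) /
      (‖σ (e.symm z)‖ ^ 2 : ℂ)) := by
    rw [hc, ← zpow_neg]
    rfl
  have h2 : loc0 κ e σ z = c • σ (e.symm z) := rfl
  have h3 : (‖c‖ : ℂ) ^ 2 = c * conj c := by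
    rw [Complex.mul_conj, Complex.normSq_eq_norm_sq]
    push_cast
    rfl
  rw [h1, dfr, h2, norm_smul, PiLp.smul_apply, smul_eq_mul, map_mul, Complex.ofReal_mul, mul_pow,
    h3]
  have h4 : conj c ≠ 0 := by simpa using hc0
  field_simp

theorem reg0_dsec {κ : ℤ} {σ : X → EuclideanSpace ℂ ι} (hσ : Reg0 ∞ κ σ) (h0 : ∀ x, σ x ≠ 0) :
    Reg0 ∞ (-κ) (dsec σ) := by
  intro e he z hz
  have hd : (jac e (e.symm z)).det ≠ 0 := jac_det_ne_zero he (e.map_target hz)
  refine (contDiffAt_of_coord fun j => ?_).contDiffWithinAt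
  have h1 : (fun y => (loc0 (-κ) e (dsec σ) y) j) =ᶠ[𝓝 z] dfr (loc0 κ e σ) j := by
    filter_upwards [e.open_target.mem_nhds hz] with y hy
    exact loc0_dsec he hy j
  refine ContDiffAt.congr_of_eventuallyEq ?_ h1
  exact contDiffAt_dfr (hσ.contDiffAt he hz) (smul_ne_zero (zpow_ne_zero κ hd) (h0 _)) j

/-! ### multiplication by a nowhere zero holomorphic section of `K^κ ⊗ L'` -/

theorem reg0_clm {κ : ℤ} {V W : Type*} [NormedAddCommGroup V] [NormedSpace ℂ V]
    [NormedAddCommGroup W] [NormedSpace ℂ W] (T : V →L[ℂ] W) {s : X → V} (hs : Reg0 ∞ κ s) :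
    Reg0 ∞ κ fun x => T (s x) := by
  rw [reg0_iff_at]
  exact fun x => (hs.at x).clm T

/-- `s ↦ s ⊗ σ` is an isomorphism (L, a) → K^κ ⊗ (L ⊗ L', a + a'), for a nowhere zero
holomorphic section `σ` of `K^κ ⊗ (L', a')` -/
def LIso.tens (L : LB X ι) (a : X → Fin 2 → ℂ) {L' : LB X ι'} {a' : X → Fin 2 → ℂ} {κ : ℤ}
    {σ : X → EuclideanSpace ℂ ι'} (hσ : Reg0 ∞ κ σ) (hs : L'.Sec σ) (h0 : ∀ x, σ x ≠ 0)
    (hd : ∀ x i, L'.db0 a' κ σ x i = 0) : LIso L a (L.tensor L') (a + a') κ where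
  t x := (H662.tens ι ι').flip (σ x)
  r x := ctr ι ι' (dsec σ x)
  t_reg := reg0_clm ((H662.tens ι ι').flip) hσ
  r_reg := reg0_clm (ctr ι ι') (reg0_dsec hσ h0)
  t_P x v := by
    rw [ContinuousLinearMap.flip_apply, ContinuousLinearMap.flip_apply, tensor_P, act_kron, hs x]
  r_P x u := by
    ext i
    rw [ctr_apply, act_apply]
    simp only [ctr_apply, tensor_P, act_apply, Fintype.sum_prod_type, Matrix.kroneckerMap_apply,
      Finset.mul_sum, Finset.sum_mul]
    -- `∑_k ∑_j P i k u(k,j) τ_j = ∑_j ∑_k ∑_l P i k P' j l u(k,l) τ_j`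
    have h1 : ∀ k l : _, ∑ j, L.P x i k * L'.P x j l * u (k, l) * dsec σ x j =
        L.P x i k * (u (k, l) * dsec σ x l) := by
      intro k l
      have h2 : ∀ j, L.P x i k * L'.P x j l * u (k, l) * dsec σ x j =
          (σ x j * dsec σ x j) * (L.P x i k * (u (k, l) * dsec σ x l)) := fun j => by
        rw [P_eq_dsec (hs x) (h0 x)]; ring
      simp only [h2]
      rw [← Finset.sum_mul, sum_mul_dsec (h0 x), one_mul]
    conv_rhs => rw [Finset.sum_comm]
    refine Finset.sum_congr rfl fun k _ => ?_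
    conv_rhs => rw [Finset.sum_comm]
    refine Finset.sum_congr rfl fun l _ => ?_
    rw [h1]
  r_t x v _ := by
    ext i
    rw [ctr_apply]
    simp only [ContinuousLinearMap.flip_apply, tens_apply]
    have h1 : ∀ j, v i * σ x j * dsec σ x j = v i * (σ x j * dsec σ x j) := fun j => by ring
    simp only [h1]
    rw [← Finset.mul_sum, sum_mul_dsec (h0 x), mul_one]
  t_r x u hu := by
    ext p
    rw [ContinuousLinearMap.flip_apply, tens_apply, ctr_apply, Finset.sum_mul]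
    conv_rhs => rw [← hu]
    -- use that `u = (1 ⊗ P') u`
    have h1 : LB.act (Matrix.kroneckerMap (· * ·) (1 : Matrix ι ι ℂ) (L'.P x)) u = u := by
      conv_lhs => rw [← hu]
      rw [tensor_P, act_act]
      have h2 : Matrix.kroneckerMap (· * ·) (1 : Matrix ι ι ℂ) (L'.P x) *
          Matrix.kroneckerMap (· * ·) (L.P x) (L'.P x) =
          Matrix.kroneckerMap (· * ·) (L.P x) (L'.P x) := by
        have := Matrix.mul_kronecker_mul (1 : Matrix ι ι ℂ) (L.P x) (L'.P x) (L'.P x)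
        rw [one_mul, L'.idem] at this
        exact this.symm
      rw [h2]
      exact hu
    rw [hu]
    conv_rhs => rw [← h1]
    rw [act_apply, Fintype.sum_prod_type]
    simp only [Matrix.kroneckerMap_apply, Matrix.one_apply]
    rw [Finset.sum_eq_single p.1 (fun b _ hb => by simp [Ne.symm hb]) (by simp)]
    refine Finset.sum_congr rfl fun j _ => ?_
    rw [if_pos rfl, P_eq_dsec (hs x) (h0 x)]
    ring
  dbar x i v hv := by
    have h1 : dbar0 κ (fun y => (H662.tens ι ι').flip (σ y)) x i =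
        (H662.tens ι ι').flip (dbar0 κ σ x i) :=
      dbar0_clm _ ((hσ.at x).of_le (by simp)) i
    have h2 := hd x i
    rw [LB.db0] at h2
    rw [h1, ContinuousLinearMap.flip_apply, ContinuousLinearMap.flip_apply, tensor_P, act_kron, hv,
      eq_neg_of_add_eq_zero_left h2, map_neg, map_smul, Pi.add_apply, Pi.add_apply]
    module

/-- (K1) (L, a) ≅ K^{-1} ⊗ (L ⊗ K, a + a_K) -/
def KBun.iso (K : KBun X ι') (L : LB X ι) (a : X → Fin 2 → ℂ) :
    LIso L a (L.tensor K.L) (a + K.a) (-1) :=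
  LIso.tens L a K.sm K.sec K.ne K.dbar

/-- (K1) `h⁰(K^{κ+1} ⊗ L) = h⁰(K^κ ⊗ (L ⊗ L_K))` -/
theorem KBun.h0_eq (K : KBun X ι') (L : LB X ι) (a : X → Fin 2 → ℂ) (κ : ℤ) :
    RR.h0 L a (κ + 1) = RR.h0 (L.tensor K.L) (a + K.a) κ := (K.iso L a).h0_eq (by ring)

theorem KBun.h1_eq (K : KBun X ι') (L : LB X ι) (a : X → Fin 2 → ℂ) (κ : ℤ) :
    RR.h1 L a (κ + 1) = RR.h1 (L.tensor K.L) (a + K.a) κ := (K.iso L a).h1_eq (by ring)

theorem KBun.h2_eq (K : KBun X ι') (L : LB X ι) (a : X → Fin 2 → ℂ) (κ : ℤ) :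
    RR.h2 L a (κ + 1) = RR.h2 (L.tensor K.L) (a + K.a) κ := (K.iso L a).h2_eq (by ring)

theorem KBun.chi_eq (K : KBun X ι') (L : LB X ι) (a : X → Fin 2 → ℂ) (κ : ℤ) :
    RR.chi L a (κ + 1) = RR.chi (L.tensor K.L) (a + K.a) κ := (K.iso L a).chi_eq (by ring)

/-- a bundle which is smoothly isomorphic to `K` carries the holomorphic structure of `K` -/
theorem exists_KBun_of_isCanon {LK : LB X ι} (h : RR.IsCanon LK) : ∃ K : KBun X ι, K.L = LK := by
  obtain ⟨σ, h1, h2, h3⟩ := h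
  exact ⟨⟨LK, conn (-1) σ, isHol_conn h1 h2 h3, σ, h1, h2, h3,
    fun x i => db0_conn LK (h2 x) (h3 x) i⟩, rfl⟩

theorem KBun.isCanon (K : KBun X ι) : RR.IsCanon K.L := ⟨K.σ, K.sm, K.sec, K.ne⟩

end

end Vale.Agent.P267.H662
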