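import Vale.Agent.P267.H662.LIso

/-!
# Cohomology of isomorphic bundles (helper662, package LB-K)
-/

open scoped Manifold ContDiff Topology ComplexConjugate Matrix ComplexOrder
open Set Filter

set_option linter.unusedSectionVars false
set_option linter.unusedSimpArgs false

noncomputable section

namespace Vale.Agent.P267.H662

open Vale.Agent.P267.FL Vale.Agent.P267

/-- linear equivalence of submodules from linear maps of the ambient spaces -/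
def subEquiv {V W : Type*} [AddCommGroup V] [Module ℂ V] [AddCommGroup W] [Module ℂ W]
    (p : Submodule ℂ V) (q : Submodule ℂ W) (T : V →ₗ[ℂ] W) (S : W →ₗ[ℂ] V)
    (hT : ∀ x ∈ p, T x ∈ q) (hS : ∀ y ∈ q, S y ∈ p) (h1 : ∀ x ∈ p, S (T x) = x)
    (h2 : ∀ y ∈ q, T (S y) = y) : p ≃ₗ[ℂ] q where
  toFun x := ⟨T x, hT x x.2⟩
  map_add' x y := by ext; simp
  map_smul' c x := by ext; simp
  invFun y := ⟨S y, hS y y.2⟩
  left_inv x := by ext; exact h1 x x.2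
  right_inv y := by ext; exact h2 y y.2

@[simp] theorem subEquiv_apply {V W : Type*} [AddCommGroup V] [Module ℂ V] [AddCommGroup W]
    [Module ℂ W] (p : Submodule ℂ V) (q : Submodule ℂ W) (T : V →ₗ[ℂ] W) (S : W →ₗ[ℂ] V)
    (hT : ∀ x ∈ p, T x ∈ q) (hS : ∀ y ∈ q, S y ∈ p) (h1 : ∀ x ∈ p, S (T x) = x)
    (h2 : ∀ y ∈ q, T (S y) = y) (x : p) : (subEquiv p q T S hT hS h1 h2 x : W) = T x := rfl

variable {X : Type*} [TopologicalSpace X] [ChartedSpace C2 X]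
variable {ι : Type} [Fintype ι] [DecidableEq ι] {ι' : Type} [Fintype ι'] [DecidableEq ι']

/-- a family of linear maps acting on functions -/
def act0 (t : X → (EuclideanSpace ℂ ι →L[ℂ] EuclideanSpace ℂ ι')) :
    (X → EuclideanSpace ℂ ι) →ₗ[ℂ] (X → EuclideanSpace ℂ ι') where
  toFun s x := t x (s x)
  map_add' s u := by funext x; simp
  map_smul' c s := by funext x; simp

/-- a family of linear maps acting on (0,1)-forms -/
def act1 (t : X → (EuclideanSpace ℂ ι →L[ℂ] EuclideanSpace ℂ ι')) :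
    (X → Fin 2 → EuclideanSpace ℂ ι) →ₗ[ℂ] (X → Fin 2 → EuclideanSpace ℂ ι') where
  toFun s x i := t x (s x i)
  map_add' s u := by funext x i; simp
  map_smul' c s := by funext x i; simp

namespace LIso

variable {L : LB X ι} {a : X → Fin 2 → ℂ} {L' : LB X ι'} {a' : X → Fin 2 → ℂ} {δ : ℤ}
variable [IsManifold 𝓘(ℂ, C2) ω X]

variable (T : LIso L a L' a' δ)

theorem mem_A0 {κ : ℤ} {s : X → EuclideanSpace ℂ ι} (hs : s ∈ RR.A0 L κ) :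
    act0 T.t s ∈ RR.A0 L' (δ + κ) :=
  ⟨reg0 T.t_reg hs.1, fun x => by
    change LB.act (L'.P x) (T.t x (s x)) = T.t x (s x)
    rw [T.t_P, hs.2 x]⟩

theorem mem_A1 {κ : ℤ} {s : X → Fin 2 → EuclideanSpace ℂ ι} (hs : s ∈ RR.A1 L κ) :
    act1 T.t s ∈ RR.A1 L' (δ + κ) :=
  ⟨reg1 T.t_reg hs.1, fun x i => by
    change LB.act (L'.P x) (T.t x (s x i)) = T.t x (s x i)
    rw [T.t_P, hs.2 x i]⟩

theorem mem_A2 {κ : ℤ} {s : X → EuclideanSpace ℂ ι} (hs : s ∈ RR.A2 L κ) :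
    act0 T.t s ∈ RR.A2 L' (δ + κ) :=
  ⟨reg2 T.t_reg hs.1, fun x => by
    change LB.act (L'.P x) (T.t x (s x)) = T.t x (s x)
    rw [T.t_P, hs.2 x]⟩

theorem db0_act {κ : ℤ} {s : X → EuclideanSpace ℂ ι} (hs : s ∈ RR.A0 L κ) :
    L'.db0 a' (δ + κ) (act0 T.t s) = act1 T.t (L.db0 a κ s) := by
  funext x i
  exact T.db0_t ((hs.1.at x).of_le (by simp)) (hs.2 x) i

theorem db1_act {κ : ℤ} {s : X → Fin 2 → EuclideanSpace ℂ ι} (hs : s ∈ RR.A1 L κ) :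
    L'.db1 a' (δ + κ) (act1 T.t s) = act0 T.t (L.db1 a κ s) := by
  funext x
  exact T.db1_t ((hs.1.at x).of_le (by simp)) (hs.2 x)

theorem mem_H0 {κ : ℤ} {s : X → EuclideanSpace ℂ ι} (hs : s ∈ RR.H0 L a κ) :
    act0 T.t s ∈ RR.H0 L' a' (δ + κ) := by
  rw [RR.mem_H0] at hs ⊢
  refine ⟨T.mem_A0 hs.1, ?_⟩
  rw [T.db0_act hs.1, hs.2]
  exact map_zero _

theorem mem_Z1 {κ : ℤ} {s : X → Fin 2 → EuclideanSpace ℂ ι} (hs : s ∈ RR.Z1 L a κ) :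
    act1 T.t s ∈ RR.Z1 L' a' (δ + κ) := by
  rw [RR.mem_Z1] at hs ⊢
  refine ⟨T.mem_A1 hs.1, ?_⟩
  rw [T.db1_act hs.1, hs.2]
  exact map_zero _

theorem mem_B1 {κ : ℤ} {s : X → Fin 2 → EuclideanSpace ℂ ι} (hs : s ∈ RR.B1 L a κ) :
    act1 T.t s ∈ RR.B1 L' a' (δ + κ) := by
  rw [RR.mem_B1] at hs ⊢
  obtain ⟨u, hu, rfl⟩ := hs
  exact ⟨_, T.mem_A0 hu, T.db0_act hu⟩

theorem mem_B2 {κ : ℤ} {s : X → EuclideanSpace ℂ ι} (hs : s ∈ RR.B2 L a κ) :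
    act0 T.t s ∈ RR.B2 L' a' (δ + κ) := by
  rw [RR.mem_B2] at hs ⊢
  obtain ⟨u, hu, rfl⟩ := hs
  exact ⟨_, T.mem_A1 hu, T.db1_act hu⟩

theorem r_t_act0 {s : X → EuclideanSpace ℂ ι} (hs : L.Sec s) : act0 T.r (act0 T.t s) = s := by
  funext x
  exact T.r_t x _ (hs x)

theorem t_r_act0 {s : X → EuclideanSpace ℂ ι'} (hs : L'.Sec s) : act0 T.t (act0 T.r s) = s := by
  funext x
  exact T.t_r x _ (hs x)

theorem r_t_act1 {s : X → Fin 2 → EuclideanSpace ℂ ι} (hs : L.Sec1 s) :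
    act1 T.r (act1 T.t s) = s := by
  funext x i
  exact T.r_t x _ (hs x i)

theorem t_r_act1 {s : X → Fin 2 → EuclideanSpace ℂ ι'} (hs : L'.Sec1 s) :
    act1 T.t (act1 T.r s) = s := by
  funext x i
  exact T.t_r x _ (hs x i)

variable {κ κ' : ℤ}

include T in
theorem neg_add_eq (hκ : κ' = δ + κ) : κ = -δ + κ' := by rw [hκ]; ring

/-- isomorphism on `H⁰` -/
def eH0 (hκ : κ' = δ + κ) : RR.H0 L a κ ≃ₗ[ℂ] RR.H0 L' a' κ' :=
  subEquiv _ _ (act0 T.t) (act0 T.r) (fun s hs => by rw [hκ]; exact T.mem_H0 hs)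
    (fun s hs => by rw [T.neg_add_eq hκ]; exact T.symm.mem_H0 hs)
    (fun s hs => T.r_t_act0 ((RR.mem_H0 _ _ _).1 hs).1.2)
    (fun s hs => T.t_r_act0 ((RR.mem_H0 _ _ _).1 hs).1.2)

/-- isomorphism on `Z¹` -/
def eZ1 (hκ : κ' = δ + κ) : RR.Z1 L a κ ≃ₗ[ℂ] RR.Z1 L' a' κ' :=
  subEquiv _ _ (act1 T.t) (act1 T.r) (fun s hs => by rw [hκ]; exact T.mem_Z1 hs)
    (fun s hs => by rw [T.neg_add_eq hκ]; exact T.symm.mem_Z1 hs)
    (fun s hs => T.r_t_act1 ((RR.mem_Z1 _ _ _).1 hs).1.2)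
    (fun s hs => T.t_r_act1 ((RR.mem_Z1 _ _ _).1 hs).1.2)

/-- isomorphism on `A²` -/
def eA2 (hκ : κ' = δ + κ) : RR.A2 L κ ≃ₗ[ℂ] RR.A2 L' κ' :=
  subEquiv _ _ (act0 T.t) (act0 T.r) (fun s hs => by rw [hκ]; exact T.mem_A2 hs)
    (fun s hs => by rw [T.neg_add_eq hκ]; exact T.symm.mem_A2 hs)
    (fun s hs => T.r_t_act0 hs.2) (fun s hs => T.t_r_act0 hs.2)

theorem map_B1 (hκ : κ' = δ + κ) : ((RR.B1 L a κ).comap (RR.Z1 L a κ).subtype).map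
    ((T.eZ1 hκ) : RR.Z1 L a κ →ₗ[ℂ] RR.Z1 L' a' κ') =
      (RR.B1 L' a' κ').comap (RR.Z1 L' a' κ').subtype := by
  ext y
  constructor
  · rintro ⟨x, hx, rfl⟩
    change act1 T.t (x : X → Fin 2 → EuclideanSpace ℂ ι) ∈ RR.B1 L' a' κ'
    rw [hκ]
    exact T.mem_B1 hx
  · intro hy
    refine ⟨(T.eZ1 hκ).symm y, ?_, (T.eZ1 hκ).apply_symm_apply y⟩
    change act1 T.r (y : X → Fin 2 → EuclideanSpace ℂ ι') ∈ RR.B1 L a κ
    rw [T.neg_add_eq hκ]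
    exact T.symm.mem_B1 hy

theorem map_B2 (hκ : κ' = δ + κ) : ((RR.B2 L a κ).comap (RR.A2 L κ).subtype).map
    ((T.eA2 hκ) : RR.A2 L κ →ₗ[ℂ] RR.A2 L' κ') =
      (RR.B2 L' a' κ').comap (RR.A2 L' κ').subtype := by
  ext y
  constructor
  · rintro ⟨x, hx, rfl⟩
    change act0 T.t (x : X → EuclideanSpace ℂ ι) ∈ RR.B2 L' a' κ'
    rw [hκ]
    exact T.mem_B2 hx
  · intro hy
    refine ⟨(T.eA2 hκ).symm y, ?_, (T.eA2 hκ).apply_symm_apply y⟩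
    change act0 T.r (y : X → EuclideanSpace ℂ ι') ∈ RR.B2 L a κ
    rw [T.neg_add_eq hκ]
    exact T.symm.mem_B2 hy

/-- isomorphism on `H¹` -/
def eH1 (hκ : κ' = δ + κ) : RR.H1 L a κ ≃ₗ[ℂ] RR.H1 L' a' κ' :=
  Submodule.Quotient.equiv _ _ (T.eZ1 hκ) (T.map_B1 hκ)

/-- isomorphism on `H²` -/
def eH2 (hκ : κ' = δ + κ) : RR.H2 L a κ ≃ₗ[ℂ] RR.H2 L' a' κ' :=
  Submodule.Quotient.equiv _ _ (T.eA2 hκ) (T.map_B2 hκ)

include T in
theorem h0_eq (hκ : κ' = δ + κ) : RR.h0 L a κ = RR.h0 L' a' κ' := (T.eH0 hκ).finrank_eq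

include T in
theorem h1_eq (hκ : κ' = δ + κ) : RR.h1 L a κ = RR.h1 L' a' κ' := (T.eH1 hκ).finrank_eq

include T in
theorem h2_eq (hκ : κ' = δ + κ) : RR.h2 L a κ = RR.h2 L' a' κ' := (T.eH2 hκ).finrank_eq

include T in
theorem chi_eq (hκ : κ' = δ + κ) : RR.chi L a κ = RR.chi L' a' κ' := by
  rw [RR.chi, RR.chi, T.h0_eq hκ, T.h1_eq hκ, T.h2_eq hκ]

end LIso

end Vale.Agent.P267.H662
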