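import Vale.Agent.P267.H662.KBEx
import Vale.Agent.P267.H399.Calc2
import Vale.Agent.P267.H221.Out

/-!
# Isomorphisms `K^κ ⊗ (L, a) ≅ K^{κ + δ} ⊗ (L', a')` and cohomology (helper662, package LB-K)

`LIso L a L' a' δ`: a smooth family of linear maps `t x : E → E'`, with values in `K^δ`, inducing a
holomorphic isomorphism (L, a) → K^δ ⊗ (L', a'). It induces isomorphisms of the Dolbeault
complexes; hence `h0, h1, h2, chi` agree (`LIso.h0_eq`, ...).
-/

open scoped Manifold ContDiff Topology ComplexConjugate Matrix ComplexOrder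
open Set Filter

set_option linter.unusedSectionVars false
set_option linter.unusedSimpArgs false

noncomputable section

namespace Vale.Agent.P267.H662

open Vale.Agent.P267.FL

variable {X : Type*} [TopologicalSpace X] [ChartedSpace C2 X]
variable {ι : Type} [Fintype ι] [DecidableEq ι] {ι' : Type} [Fintype ι'] [DecidableEq ι']

/-- a holomorphic isomorphism (L, a) → K^δ ⊗ (L', a'), given by smooth families of linear maps -/
structure LIso (L : LB X ι) (a : X → Fin 2 → ℂ) (L' : LB X ι') (a' : X → Fin 2 → ℂ) (δ : ℤ) where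
  t : X → (EuclideanSpace ℂ ι →L[ℂ] EuclideanSpace ℂ ι')
  r : X → (EuclideanSpace ℂ ι' →L[ℂ] EuclideanSpace ℂ ι)
  t_reg : Reg0 ∞ δ t
  r_reg : Reg0 ∞ (-δ) r
  t_P : ∀ x v, LB.act (L'.P x) (t x v) = t x (LB.act (L.P x) v)
  r_P : ∀ x u, LB.act (L.P x) (r x u) = r x (LB.act (L'.P x) u)
  r_t : ∀ x v, LB.act (L.P x) v = v → r x (t x v) = v
  t_r : ∀ x u, LB.act (L'.P x) u = u → t x (r x u) = u
  dbar : ∀ x i v, LB.act (L.P x) v = v →
    LB.act (L'.P x) (dbar0 δ t x i v) + (a' x i - a x i) • t x v = 0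

namespace LIso

variable {L : LB X ι} {a : X → Fin 2 → ℂ} {L' : LB X ι'} {a' : X → Fin 2 → ℂ} {δ : ℤ}
variable [IsManifold 𝓘(ℂ, C2) ω X]

/-- evaluation -/
abbrev ev (ι ι' : Type) [Fintype ι] [Fintype ι'] :
    (EuclideanSpace ℂ ι →L[ℂ] EuclideanSpace ℂ ι') →L[ℂ]
      EuclideanSpace ℂ ι →L[ℂ] EuclideanSpace ℂ ι' :=
  ContinuousLinearMap.id ℂ (EuclideanSpace ℂ ι →L[ℂ] EuclideanSpace ℂ ι')

theorem reg0 {δ κ : ℤ} {t : X → (EuclideanSpace ℂ ι →L[ℂ] EuclideanSpace ℂ ι')}
    (ht : Reg0 ∞ δ t) {s : X → EuclideanSpace ℂ ι} (hs : Reg0 ∞ κ s) :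
    Reg0 ∞ (δ + κ) fun x => t x (s x) := by
  rw [reg0_iff_at]
  exact fun x => At0.bilin (B := ev ι ι') (ht.at x) (hs.at x)

theorem reg1 {δ κ : ℤ} {t : X → (EuclideanSpace ℂ ι →L[ℂ] EuclideanSpace ℂ ι')}
    (ht : Reg0 ∞ δ t) {s : X → Fin 2 → EuclideanSpace ℂ ι} (hs : Reg1 ∞ κ s) :
    Reg1 ∞ (δ + κ) fun x i => t x (s x i) := by
  rw [reg1_iff_at]
  exact fun x => At1.bilin (B := ev ι ι') (ht.at x) (hs.at x)

theorem reg2 {δ κ : ℤ} {t : X → (EuclideanSpace ℂ ι →L[ℂ] EuclideanSpace ℂ ι')}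
    (ht : Reg0 ∞ δ t) {s : X → EuclideanSpace ℂ ι} (hs : Reg2 ∞ κ s) :
    Reg2 ∞ (δ + κ) fun x => t x (s x) := by
  rw [reg2_iff_at]
  exact fun x => At2.bilin (B := ev ι ι') (ht.at x) (hs.at x)

/-- the isomorphism commutes with `∂̄` -/
theorem db0_t (T : LIso L a L' a' δ) {κ : ℤ} {s : X → EuclideanSpace ℂ ι} {x : X}
    (hs : At0 1 κ s x) (hP : LB.act (L.P x) (s x) = s x) (i : Fin 2) :
    L'.db0 a' (δ + κ) (fun y => T.t y (s y)) x i = T.t x (L.db0 a κ s x i) := by
  have h1 : dbar0 (δ + κ) (fun y => T.t y (s y)) x i =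
      (dbar0 δ T.t x i) (s x) + T.t x (dbar0 κ s x i) :=
    dbar0_bilin (B := ev ι ι') ((T.t_reg.at x).of_le (by simp)) hs i
  have h2 := T.dbar x i (s x) hP
  rw [LB.db0, h1, act_add, T.t_P, LB.db0, map_add, map_smul]
  have h3 : LB.act (L'.P x) (dbar0 δ T.t x i (s x)) = -((a' x i - a x i) • T.t x (s x)) :=
    eq_neg_of_add_eq_zero_left h2
  rw [h3]
  module

/-- the isomorphism commutes with `∂̄` -/
theorem db1_t (T : LIso L a L' a' δ) {κ : ℤ} {w : X → Fin 2 → EuclideanSpace ℂ ι} {x : X}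
    (hw : At1 1 κ w x) (hP : ∀ i, LB.act (L.P x) (w x i) = w x i) :
    L'.db1 a' (δ + κ) (fun y i => T.t y (w y i)) x = T.t x (L.db1 a κ w x) := by
  have h1 : dbar1 (δ + κ) (fun y i => T.t y (w y i)) x =
      (dbar0 δ T.t x 0 (w x 1) - dbar0 δ T.t x 1 (w x 0)) + T.t x (dbar1 κ w x) :=
    dbar1_bilin (B := ev ι ι') ((T.t_reg.at x).of_le (by simp)) hw
  have h3 : ∀ i j, LB.act (L'.P x) (dbar0 δ T.t x i (w x j)) =
      -((a' x i - a x i) • T.t x (w x j)) := fun i j =>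
    eq_neg_of_add_eq_zero_left (T.dbar x i (w x j) (hP j))
  rw [LB.db1, h1, act_add, act_sub, T.t_P, h3, h3, LB.db1, map_add, map_sub, map_smul, map_smul]
  module

/-- the inverse isomorphism -/
def symm (T : LIso L a L' a' δ) : LIso L' a' L a (-δ) where
  t := T.r
  r := T.t
  t_reg := T.r_reg
  r_reg := by rw [neg_neg]; exact T.t_reg
  t_P := T.r_P
  r_P := T.t_P
  r_t := T.t_r
  t_r := T.r_t
  dbar x i u hu := by
    -- differentiate `r (t v) = v` on a smooth local section `v` through the given vector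
    -- extend `u` to a section `v y = r y (P' y u)`
    set s : X → EuclideanSpace ℂ ι' := fun y => LB.act (L'.P y) u with hs
    have hsP : ∀ y, LB.act (L'.P y) (s y) = s y := fun y => by
      rw [hs, act_act, L'.idem]
    have hsr : Reg0 ∞ 0 s := by
      intro e he
      have h1 : loc0 0 e s = fun z => WithLp.toLp 2 fun i => ∑ j, L'.P (e.symm z) i j * u j := by
        rw [LB.loc0_zero]
        rfl
      rw [h1]
      intro z hz
      refine (contDiffAt_of_coord fun i => ?_).contDiffWithinAt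
      refine ContDiffAt.sum fun j _ => ?_
      have h2 := (L'.smooth i j).contDiffAt he hz
      rw [LB.loc0_zero] at h2
      exact h2.mul contDiffAt_const
    have hsx : s x = u := hu
    -- `v = r s`
    have hv : Reg0 ∞ (-δ + 0) fun y => T.r y (s y) := reg0 T.r_reg hsr
    have hvP : ∀ y, LB.act (L.P y) (T.r y (s y)) = T.r y (s y) := fun y => by
      rw [T.r_P, hsP]
    have e1 := T.db0_t (κ := -δ + 0) ((hv.at x).of_le (by simp)) (hvP x) i
    have e2 : (fun y => T.t y (T.r y (s y))) = s := by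
      funext y
      exact T.t_r y _ (hsP y)
    rw [e2] at e1
    have e3 : δ + (-δ + 0) = 0 := by ring
    rw [e3] at e1
    have e4 := congrArg (T.r x) e1
    have e5 : LB.act (L.P x) (L.db0 a (-δ + 0) (fun y => T.r y (s y)) x i) =
        L.db0 a (-δ + 0) (fun y => T.r y (s y)) x i := by
      rw [LB.db0, act_add, act_act, L.idem, act_smul, hvP]
    rw [T.r_t x _ e5] at e4
    -- expand both sides
    have h1 : dbar0 (-δ + 0) (fun y => T.r y (s y)) x i =
        (dbar0 (-δ) T.r x i) (s x) + T.r x (dbar0 0 s x i) :=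
      dbar0_bilin (B := ev ι' ι) ((T.r_reg.at x).of_le (by simp)) ((hsr.at x).of_le (by simp)) i
    have h2 : T.r x (L'.db0 a' 0 s x i) =
        T.r x (LB.act (L'.P x) (dbar0 0 s x i)) + a' x i • T.r x (s x) := by
      rw [LB.db0, map_add, map_smul]
    have h3 : L.db0 a (-δ + 0) (fun y => T.r y (s y)) x i =
        LB.act (L.P x) (dbar0 (-δ) T.r x i (s x)) + T.r x (LB.act (L'.P x) (dbar0 0 s x i)) +
          a x i • T.r x (s x) := by
      rw [LB.db0, h1, act_add, T.r_P]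
    rw [h2, h3, hsx] at e4
    have h4 : LB.act (L.P x) (dbar0 (-δ) T.r x i u) + (a x i - a' x i) • T.r x u =
        (LB.act (L.P x) (dbar0 (-δ) T.r x i u) + T.r x (LB.act (L'.P x) (dbar0 0 s x i)) +
          a x i • T.r x u) - (T.r x (LB.act (L'.P x) (dbar0 0 s x i)) + a' x i • T.r x u) := by
      module
    rw [h4, ← e4, sub_self]

end LIso

end Vale.Agent.P267.H662
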